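import Vale.Agent.P210.R2.H946.Dim2
import Vale.Agent.P210.R2.H86.Dim3
import Vale.Agent.P210.R2.H664.Dim4
import Vale.Agent.P210.R2.H81.Dim5

/-!
# Covering dimension of manifolds: barycentric coordinates subordinate to an open cover
-/

open scoped Topology
open Set Metric Filter

noncomputable section

namespace Vale.Agent.P210.R2.H465

/-- barycentric coordinates of order `dim X`, subordinate to a given open cover -/
theorem exists_bary_sub (V : Type) [NormedAddCommGroup V] [NormedSpace ℝ V]
    [FiniteDimensional ℝ V] (X : Type) [TopologicalSpace X] [T2Space X] [SigmaCompactSpace X]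
    [Nonempty X] [ChartedSpace V X] {A : Type} {U : A → Set X} (hU : ∀ a, IsOpen (U a))
    (hUc : (⋃ a, U a) = univ) :
    ∃ lam : A → X → ℝ, TP.Bary X A (Module.finrank ℝ V) lam ∧
      ∀ a, Function.support (lam a) ⊆ U a := by
  obtain ⟨C, hC, hlf, hcov, hch⟩ := H81.exists_chart_cover V X
  obtain ⟨W, hW, hWU, hWc, hord⟩ := H86.glue_cover (k := Module.finrank ℝ V) C
    (fun i => (hC i).isClosed) hlf hcov (fun i A U hU hCU => by
      obtain ⟨e, he⟩ := hch i
      exact H946.compact_refine e (hC i) he A U hU hCU) hU hUc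
  have : ProperSpace V := FiniteDimensional.proper ℝ V
  have : LocallyCompactSpace X := ChartedSpace.locallyCompactSpace V X
  obtain ⟨lam, h1, h2⟩ := H664.bary_of_cover hW hWc hord
  exact ⟨lam, h1, fun a => (h2 a).trans (hWU a)⟩

end Vale.Agent.P210.R2.H465
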