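import Vale.Agent.P210.R2.H53.TwDefs
import Mathlib.Topology.Compactness.Paracompact
import Mathlib.MeasureTheory.Integral.Bochner.Basic

noncomputable section

namespace Vale.Agent.P210.R2.H465

open Vale.Agent.P210.R2.H53

variable {V : Type} [NormedAddCommGroup V] [NormedSpace ℝ V] {N F : Type}

/-- The square of the volume density at `v` of the metric `g` on an open set of `V`: the
determinant of its coefficients in the standard basis of `V`. -/
def densitySq [FiniteDimensional ℝ V] (g : V → V → V → ℝ) (v : V) : ℝ :=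
  Matrix.det (Matrix.of fun i j => g v (Module.finBasis ℝ V i) (Module.finBasis ℝ V j))

/-- Let `k x y` be the metric of the fibre over `x` in the chart at `y` and `c y` the coordinates
of `y` in this chart. On the set `Y` the volume densities of the fibres over any two points are
proportional. -/
def ProportionalOn [FiniteDimensional ℝ V] (k : N → F → V → V → V → ℝ) (c : F → V) (Y : Set F) :
    Prop :=
  ∀ y ∈ Y, ∀ y' ∈ Y, ∀ x x' : N, densitySq (k x y) (c y) * densitySq (k x' y') (c y') =
    densitySq (k x' y) (c y) * densitySq (k x y') (c y')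

/-- There are weights `p_j ≥ 0` with sum `1` and sets `Y_j`, on each of which the volume densities
of the fibres are proportional, and for every `x` points `y_j` of `Y_j` at which the fibre over `x`
has scalar curvatures at most `s_j` with `∑ p_j s_j ≤ θ`. -/
def FibreScalLE [FiniteDimensional ℝ V] (θ : ℝ) (k : N → F → V → V → V → ℝ) (c : F → V) : Prop :=
  ∃ (r : ℕ) (p : Fin r → ℝ) (Y : Fin r → Set F), (∀ j, 0 ≤ p j) ∧ ∑ j, p j = 1 ∧
    (∀ j, ProportionalOn k c (Y j)) ∧ ∀ x : N, ∃ (y : Fin r → F) (s : Fin r → ℝ),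
      (∀ j, y j ∈ Y j ∧ ScalLEAt (k x (y j)) (c (y j)) (s j)) ∧ ∑ j, p j * s j ≤ θ

/-- There is a compactly supported probability measure `μ` on `F` and a continuous upper bound `S`
of the scalar curvatures of the fibres (such as the scalar curvature) with `∫ S (x, y) ∂μ(y) ≤ θ`
for every `x`. -/
def MeanScalLE [TopologicalSpace N] [TopologicalSpace F] (θ : ℝ) (k : N → F → V → V → V → ℝ)
    (c : F → V) : Prop :=
  ∃ (μ : @MeasureTheory.Measure F (borel F)) (L : Set F) (S : N × F → ℝ),
    MeasureTheory.IsProbabilityMeasure μ ∧ IsCompact L ∧ μ Lᶜ = 0 ∧ Continuous S ∧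
    (∀ x y, ScalLEAt (k x y) (c y) (S (x, y))) ∧ ∀ x, ∫ y, S (x, y) ∂μ ≤ θ

/-- One of the two conditions holds. -/
def MeanOrFibreScalLE [FiniteDimensional ℝ V] [TopologicalSpace N] [TopologicalSpace F] (θ : ℝ)
    (k : N → F → V → V → V → ℝ) (c : F → V) : Prop :=
  MeanScalLE θ k c ∨ FibreScalLE θ k c

/-- The covering dimension of `B` is at most `d`: every open cover can be shrunk to an open cover
with at most `d + 1` members through each point. -/
def CovDimLE (B : Type) [TopologicalSpace B] (d : ℕ) : Prop :=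
  ∀ (A : Type) (U : A → Set B), (∀ a, IsOpen (U a)) → (⋃ a, U a) = Set.univ →
    ∃ W : A → Set B, (∀ a, IsOpen (W a) ∧ W a ⊆ U a) ∧ (⋃ a, W a) = Set.univ ∧
      ∀ x, {a | x ∈ W a}.Finite ∧ {a | x ∈ W a}.ncard ≤ d + 1

/-- `g` is an open map of `M` onto `Q` that does not increase distances, `q` is a quotient map of
`Q` onto `B`, and the fibres of `q` are the images of the leaves `N × {y}`. -/
def IsLeafQuotient {M Q B : Type} [MetricSpace M] [MetricSpace Q] [TopologicalSpace B]
    (Ψ : N × F → M) (g : M → Q) (q : Q → B) : Prop :=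
  Function.Surjective g ∧ IsOpenMap g ∧ (∀ a b : M, dist (g a) (g b) ≤ dist a b) ∧
    Topology.IsQuotientMap q ∧ ∀ y : F, ∃ b : B, Set.range (fun x : N => g (Ψ (x, y))) = q ⁻¹' {b}

/-- `UW_d(Q) ≤ C` for every such `Q` whose leaf space `B` is a paracompact Hausdorff space of
covering dimension at most `d`. -/
def QuotientWidthLE {M : Type} [MetricSpace M] (Ψ : N × F → M) (d : ℕ) (C : ℝ) : Prop :=
  ∀ (Q : Type) [MetricSpace Q] (B : Type) [TopologicalSpace B] [T2Space B] [ParacompactSpace B]
    (g : M → Q) (q : Q → B), IsLeafQuotient Ψ g q → CovDimLE B d → H53.UrysohnWidthLE Q d C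

end Vale.Agent.P210.R2.H465
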