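import Vale.Agent.P210.R2.H53.Base
import Mathlib.Geometry.Manifold.VectorBundle.ContMDiffSection

/-!
# Conformal change of the metric on a copy of a Riemannian manifold
-/

open scoped Manifold ContDiff Topology Bundle ENNReal
open Set Metric Filter Bundle IsManifold MeasureTheory Manifold

set_option maxSynthPendingDepth 3

noncomputable section

namespace Vale.Agent.P210.R2.H465

open Vale.Agent.P210.R2.H53

/-- A copy of `N`, to carry the metric `r h`. -/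
def Cf (N : Type) (r : N → ℝ) (_ : ∀ x, 0 < r x) : Type := N

section basic

variable {N : Type} {r : N → ℝ} (hr : ∀ x, 0 < r x)

/-- the identification -/
def Cf.p (x : Cf N r hr) : N := x

instance instTopCf [TopologicalSpace N] : TopologicalSpace (Cf N r hr) :=
  inferInstanceAs (TopologicalSpace N)

instance instT3Cf [TopologicalSpace N] [T3Space N] : T3Space (Cf N r hr) :=
  inferInstanceAs (T3Space N)

instance instConnCf [TopologicalSpace N] [PreconnectedSpace N] : PreconnectedSpace (Cf N r hr) :=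
  inferInstanceAs (PreconnectedSpace N)

/-- the identification as a homeomorphism -/
def Cf.homeo [TopologicalSpace N] : N ≃ₜ Cf N r hr := Homeomorph.refl N

instance instChartedCf [TopologicalSpace N] {E : Type} [TopologicalSpace E] [ChartedSpace E N] :
    ChartedSpace E (Cf N r hr) := inferInstanceAs (ChartedSpace E N)

end basic

section smooth

variable {N : Type} [TopologicalSpace N] {r : N → ℝ} (hr : ∀ x, 0 < r x)
  {E : Type} [NormedAddCommGroup E] [NormedSpace ℝ E] [ChartedSpace E N]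

instance instManifoldCf [h : IsManifold 𝓘(ℝ, E) ∞ N] : IsManifold 𝓘(ℝ, E) ∞ (Cf N r hr) := h

/-- scaled sets are bounded -/
theorem bdd_scale {s : ℝ} (hs : 0 < s) {B : E →L[ℝ] E →L[ℝ] ℝ}
    (hB : Bornology.IsVonNBounded ℝ {v : E | B v v < 1}) :
    Bornology.IsVonNBounded ℝ {v : E | (s • B) v v < 1} := by
  have h1 := hB.image (((√s)⁻¹ : ℝ) • ContinuousLinearMap.id ℝ E)
  refine h1.subset fun v hv => ?_
  refine ⟨√s • v, ?_, ?_⟩
  · have h2 : s * B v v < 1 := hv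
    have h3 : B (√s • v) (√s • v) = s * B v v := by
      simp only [map_smul, smul_apply, smul_eq_mul]
      rw [← mul_assoc, Real.mul_self_sqrt hs.le]
    show B (√s • v) (√s • v) < 1
    rw [h3]
    exact h2
  · have h2 : √s ≠ 0 := (Real.sqrt_pos.2 hs).ne'
    simp [smul_smul, mul_inv_cancel₀ h2]

variable [RiemannianBundle (fun x : N => TangentSpace 𝓘(ℝ, E) x)]

/-- the metric `r h` -/
@[reducible] def rbN : RiemannianBundle (fun x : N => TangentSpace 𝓘(ℝ, E) x) where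
  g :=
    { inner := fun x => r x •
        (RiemannianBundle.g (E := fun x : N => TangentSpace 𝓘(ℝ, E) x)).inner x
      symm := fun x v w => congrArg (fun t => r x * t)
        ((RiemannianBundle.g (E := fun x : N => TangentSpace 𝓘(ℝ, E) x)).symm x v w)
      pos := fun x v hv => mul_pos (hr _)
        ((RiemannianBundle.g (E := fun x : N => TangentSpace 𝓘(ℝ, E) x)).pos x v hv)
      continuousAt := fun x =>
        ((RiemannianBundle.g (E := fun x : N => TangentSpace 𝓘(ℝ, E) x)).continuousAt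
          x).const_mul _
      isVonNBounded := fun x => bdd_scale (hr _)
        ((RiemannianBundle.g (E := fun x : N => TangentSpace 𝓘(ℝ, E) x)).isVonNBounded x) }

instance instRiemannianCf :
    RiemannianBundle (fun x : Cf N r hr => TangentSpace 𝓘(ℝ, E) x) :=
  rbN (N := N) (r := r) (E := E) hr

theorem Cf.inner_eq (x : Cf N r hr) (v w : TangentSpace 𝓘(ℝ, E) x) :
    inner ℝ v w = r (Cf.p hr x) * inner ℝ (show TangentSpace 𝓘(ℝ, E) (Cf.p hr x) from v)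
      (show TangentSpace 𝓘(ℝ, E) (Cf.p hr x) from w) := rfl

theorem Cf.norm_eq (x : Cf N r hr) (v : TangentSpace 𝓘(ℝ, E) x) :
    ‖v‖ = √(r (Cf.p hr x)) * ‖(show TangentSpace 𝓘(ℝ, E) (Cf.p hr x) from v)‖ := by
  rw [norm_eq_sqrt_real_inner, Cf.inner_eq, Real.sqrt_mul (hr _).le, norm_eq_sqrt_real_inner]

theorem Cf.enorm_eq (x : Cf N r hr) (v : TangentSpace 𝓘(ℝ, E) x) :
    ‖v‖ₑ = ENNReal.ofReal (√(r (Cf.p hr x))) *
      ‖(show TangentSpace 𝓘(ℝ, E) (Cf.p hr x) from v)‖ₑ := by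
  rw [← ofReal_norm, Cf.norm_eq, ENNReal.ofReal_mul (Real.sqrt_nonneg _), ofReal_norm]

variable [IsManifold 𝓘(ℝ, E) ∞ N]
  [h : IsContMDiffRiemannianBundle 𝓘(ℝ, E) ∞ E (fun x : N => TangentSpace 𝓘(ℝ, E) x)]

theorem plain_smooth : ContMDiff 𝓘(ℝ, E) (𝓘(ℝ, E).prod 𝓘(ℝ, E →L[ℝ] E →L[ℝ] ℝ)) ∞
      (fun b : N => TotalSpace.mk' (E →L[ℝ] E →L[ℝ] ℝ)
        (E := fun b : N => TangentSpace 𝓘(ℝ, E) b →L[ℝ] TangentSpace 𝓘(ℝ, E) b →L[ℝ] ℝ) b
        ((RiemannianBundle.g (E := fun x : N => TangentSpace 𝓘(ℝ, E) x)).inner b)) := by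
  obtain ⟨g, hg, hg'⟩ := h.exists_contMDiff
  have h1 : ∀ b : N, (RiemannianBundle.g (E := fun x : N => TangentSpace 𝓘(ℝ, E) x)).inner b =
      g b := by
    intro b
    ext v w
    exact hg' b v w
  simp only [h1]
  exact hg

theorem plain_smul (hs : ContMDiff 𝓘(ℝ, E) 𝓘(ℝ, ℝ) ∞ r) :
    ContMDiff 𝓘(ℝ, E) (𝓘(ℝ, E).prod 𝓘(ℝ, E →L[ℝ] E →L[ℝ] ℝ)) ∞
      (fun b : N => TotalSpace.mk' (E →L[ℝ] E →L[ℝ] ℝ)
        (E := fun b : N => TangentSpace 𝓘(ℝ, E) b →L[ℝ] TangentSpace 𝓘(ℝ, E) b →L[ℝ] ℝ) b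
        (r b • (RiemannianBundle.g (E := fun x : N => TangentSpace 𝓘(ℝ, E) x)).inner b)) :=
  fun x => (hs x).smul_section (plain_smooth x)

theorem rbN_smooth (hs : ContMDiff 𝓘(ℝ, E) 𝓘(ℝ, ℝ) ∞ r) :
    letI := rbN (E := E) hr
    IsContMDiffRiemannianBundle 𝓘(ℝ, E) ∞ E (fun x : N => TangentSpace 𝓘(ℝ, E) x) := by
  have h1 := plain_smul (N := N) (E := E) hs
  let g0 := fun x : N =>
    r x • (RiemannianBundle.g (E := fun x : N => TangentSpace 𝓘(ℝ, E) x)).inner x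
  let := rbN (E := E) hr
  exact ⟨g0, h1, fun x v w => rfl⟩

theorem Cf.contMDiffRiemannian (hs : ContMDiff 𝓘(ℝ, E) 𝓘(ℝ, ℝ) ∞ r) :
    IsContMDiffRiemannianBundle 𝓘(ℝ, E) ∞ E (fun x : Cf N r hr => TangentSpace 𝓘(ℝ, E) x) :=
  rbN_smooth (N := N) (r := r) (E := E) hr hs

end smooth

section metric

variable {E : Type} [NormedAddCommGroup E] [NormedSpace ℝ E]

theorem continuousRiem (N : Type) [TopologicalSpace N] [ChartedSpace E N]
    [IsManifold 𝓘(ℝ, E) ∞ N] [RiemannianBundle (fun x : N => TangentSpace 𝓘(ℝ, E) x)]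
    [h : IsContMDiffRiemannianBundle 𝓘(ℝ, E) ∞ E (fun x : N => TangentSpace 𝓘(ℝ, E) x)] :
    IsContinuousRiemannianBundle E (fun x : N => TangentSpace 𝓘(ℝ, E) x) := by
  obtain ⟨g, hg, hg'⟩ := h.exists_contMDiff
  exact ⟨g, hg.continuous, hg'⟩

/-- In a connected Riemannian manifold the distance is finite. -/
theorem riemEDist_lt_top {N : Type} [TopologicalSpace N] [ChartedSpace E N]
    [IsManifold 𝓘(ℝ, E) ∞ N] [RiemannianBundle (fun x : N => TangentSpace 𝓘(ℝ, E) x)]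
    [IsContMDiffRiemannianBundle 𝓘(ℝ, E) ∞ E (fun x : N => TangentSpace 𝓘(ℝ, E) x)]
    [PreconnectedSpace N] (x y : N) : riemannianEDist 𝓘(ℝ, E) x y < ⊤ := by
  have := continuousRiem (E := E) N
  have h1 : IsOpen {y : N | riemannianEDist 𝓘(ℝ, E) x y < ⊤} := by
    rw [isOpen_iff_mem_nhds]
    intro y hy
    filter_upwards [eventually_riemannianEDist_lt 𝓘(ℝ, E) y (c := 1) one_pos] with z hz
    exact riemannianEDist_triangle.trans_lt (ENNReal.add_lt_top.2 ⟨hy, hz.trans ENNReal.one_lt_top⟩)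
  have h2 : IsClosed {y : N | riemannianEDist 𝓘(ℝ, E) x y < ⊤} := by
    rw [← isOpen_compl_iff, isOpen_iff_mem_nhds]
    intro y hy
    filter_upwards [eventually_riemannianEDist_lt 𝓘(ℝ, E) y (c := 1) one_pos] with z hz hz'
    refine hy (riemannianEDist_triangle.trans_lt (ENNReal.add_lt_top.2 ⟨hz', ?_⟩))
    rw [riemannianEDist_comm]
    exact hz.trans ENNReal.one_lt_top
  have h3 := IsClopen.eq_univ ⟨h2, h1⟩ ⟨x, by
    rw [mem_ofPred_eq, riemannianEDist_self]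
    exact ENNReal.zero_lt_top⟩
  exact h3.symm.subset (mem_univ y)

/-- the Riemannian distance on the copy -/
@[reducible] def Cf.metric {N : Type} [TopologicalSpace N] [T3Space N] [PreconnectedSpace N]
    {r : N → ℝ} (hr : ∀ x, 0 < r x) [ChartedSpace E N] [IsManifold 𝓘(ℝ, E) ∞ N]
    [RiemannianBundle (fun x : N => TangentSpace 𝓘(ℝ, E) x)]
    (hC : IsContMDiffRiemannianBundle 𝓘(ℝ, E) ∞ E
      (fun x : Cf N r hr => TangentSpace 𝓘(ℝ, E) x)) : MetricSpace (Cf N r hr) :=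
  letI := continuousRiem (E := E) (Cf N r hr)
  letI : EMetricSpace (Cf N r hr) := EMetricSpace.ofRiemannianMetric 𝓘(ℝ, E) (Cf N r hr)
  EMetricSpace.toMetricSpace (fun x y => (riemEDist_lt_top (E := E) x y).ne)

theorem Cf.edist_ge {N : Type} [TopologicalSpace N]
    {r : N → ℝ} (hr : ∀ x, 0 < r x) [ChartedSpace E N] [IsManifold 𝓘(ℝ, E) ∞ N]
    [RiemannianBundle (fun x : N => TangentSpace 𝓘(ℝ, E) x)] {A : ℝ}
    (h : ∀ x, A ^ 2 ≤ r x) (x y : Cf N r hr) :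
    ENNReal.ofReal A * riemannianEDist 𝓘(ℝ, E) (Cf.p hr x) (Cf.p hr y) ≤
      riemannianEDist 𝓘(ℝ, E) x y := by
  refine le_of_forall_gt fun R hR => ?_
  obtain ⟨γ, h0, h1, hγ, hlen⟩ := exists_lt_of_riemannianEDist_lt hR
  have h2 : ContMDiffOn 𝓘(ℝ, ℝ) 𝓘(ℝ, E) 1 (fun t => Cf.p hr (γ t)) (Icc 0 1) := hγ
  have h3 := riemannianEDist_le_pathELength (I := 𝓘(ℝ, E)) h2 (congrArg (Cf.p hr) h0)
    (congrArg (Cf.p hr) h1) zero_le_one
  refine (mul_le_mul' le_rfl h3).trans_lt (lt_of_le_of_lt ?_ hlen)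
  rw [pathELength_eq_lintegral_mfderivWithin_Icc, pathELength_eq_lintegral_mfderivWithin_Icc,
    ← lintegral_const_mul' _ _ ENNReal.ofReal_ne_top]
  refine setLIntegral_mono' measurableSet_Icc fun t _ => ?_
  rw [Cf.enorm_eq]
  refine mul_le_mul' (ENNReal.ofReal_le_ofReal ?_) le_rfl
  exact Real.le_sqrt_of_sq_le (h _)

end metric

/-- Conformal change, packaged. -/
theorem exists_conformal {E : Type} [NormedAddCommGroup E] [NormedSpace ℝ E]
    {N : Type} [MetricSpace N] [ChartedSpace E N]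
    [RiemannianBundle (fun x : N => TangentSpace 𝓘(ℝ, E) x)] [IsManifold 𝓘(ℝ, E) ∞ N]
    [IsContMDiffRiemannianBundle 𝓘(ℝ, E) ∞ E (fun x : N => TangentSpace 𝓘(ℝ, E) x)]
    [IsRiemannianManifold 𝓘(ℝ, E) N] [PreconnectedSpace N] {r : N → ℝ}
    (hs : ContMDiff 𝓘(ℝ, E) 𝓘(ℝ, ℝ) ∞ r) (hr : ∀ x, 0 < r x) :
    ∃ (N' : Type) (_ : MetricSpace N') (_ : ChartedSpace E N')
      (_ : RiemannianBundle (fun x : N' => TangentSpace 𝓘(ℝ, E) x))
      (_ : IsManifold 𝓘(ℝ, E) ∞ N')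
      (_ : IsContMDiffRiemannianBundle 𝓘(ℝ, E) ∞ E (fun x : N' => TangentSpace 𝓘(ℝ, E) x))
      (_ : IsRiemannianManifold 𝓘(ℝ, E) N') (h : N ≃ₜ N'),
      (∀ e ∈ maximalAtlas 𝓘(ℝ, E) ∞ N', ∃ e' ∈ maximalAtlas 𝓘(ℝ, E) ∞ N,
        e'.target = e.target ∧ (∀ x, h x ∈ e.source ↔ x ∈ e'.source) ∧ (∀ x, e (h x) = e' x) ∧
        (∀ z, e.symm z = h (e'.symm z)) ∧
        ∀ z, chartG e z = r (e'.symm z) • chartG e' z) ∧
      ∀ A > 0, (∀ x, A ^ 2 ≤ r x) → ∀ x y, A * dist x y ≤ dist (h x) (h y) := by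
  have hC := Cf.contMDiffRiemannian (E := E) hr hs
  let := Cf.metric (E := E) hr hC
  refine ⟨Cf N r hr, Cf.metric (E := E) hr hC, inferInstance, inferInstance,
    inferInstance, hC, ⟨fun x y => rfl⟩, Cf.homeo hr, ?_, ?_⟩
  · intro e he
    refine ⟨e, he, rfl, fun x => Iff.rfl, fun x => rfl, fun z => rfl, fun z => ?_⟩
    ext v w
    rfl
  · intro A hA h x y
    have h1 := Cf.edist_ge (E := E) hr h (Cf.homeo hr x) (Cf.homeo hr y)
    have h2 : riemannianEDist 𝓘(ℝ, E) (Cf.p hr (Cf.homeo hr x)) (Cf.p hr (Cf.homeo hr y)) =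
        edist x y := (IsRiemannianManifold.out (I := 𝓘(ℝ, E)) x y).symm
    have h3 : riemannianEDist 𝓘(ℝ, E) (Cf.homeo hr x) (Cf.homeo hr y) =
        edist (Cf.homeo hr x) (Cf.homeo hr y) := rfl
    rw [h2, h3, edist_dist, edist_dist, ← ENNReal.ofReal_mul hA.le] at h1
    exact (ENNReal.ofReal_le_ofReal_iff dist_nonneg).1 h1

end Vale.Agent.P210.R2.H465
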