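import Vale.Agent.P210.R2.H204.SviA
import Vale.Agent.P210.R2.H265.Tws

/-!
# Surfaces: the curvature in the plane, conformal change
-/

open scoped Manifold ContDiff Topology Bundle
open Set Metric Filter Bundle IsManifold MeasureTheory Manifold

set_option maxSynthPendingDepth 3

noncomputable section

namespace Vale.Agent.P210.R2.H465

open Vale.Agent.P210.R2.H53 Vale.Agent.P210.H204

section flat

variable {E : Type} [NormedAddCommGroup E] [NormedSpace ℝ E] [FiniteDimensional ℝ E]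
  {G : E → E →L[ℝ] E →L[ℝ] ℝ} {U : Set E} {z : E}

theorem secG_plane (h : LocalRiem G U) (hz : z ∈ U) (a b : E) (x y : ℝ) :
    secG G z a (x • a + y • b) = y ^ 2 * secG G z a b := by
  have e1 := h.fderiv2_comm hz b a
  have e2 : ∀ u v : E, fderiv ℝ (fderiv ℝ G) z u v b a = fderiv ℝ (fderiv ℝ G) z u v a b :=
    fun u v => h.fderiv2_symm hz u v b a
  have e3 := h.chris_symm hz b a
  have e4 : ∀ u v : E, G z u v = G z v u := h.symm z hz
  simp only [secG, map_add, map_smul, add_apply, smul_apply, smul_eq_mul, e1, e2, e3]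
  rw [e4 (chris G z a b) (chris G z a a)]
  ring

/-- In dimension two the curvature of the planes is constant. -/
theorem sum_secG_two {n : ℕ} (hn : n = 2) (h : LocalRiem G U) (hz : z ∈ U)
    (Y : Module.Basis (Fin n) ℝ E) (hY : ON (G z) Y) {v : E} (hv : G z v v = 1) :
    2 * ∑ i, secG G z (Y i) v = ∑ i, ∑ j, secG G z (Y i) (Y j) := by
  subst hn
  have h1 := parseval Y hY v
  have h2 : v = G z v (Y 0) • Y 0 + G z v (Y 1) • Y 1 := by
    have h3 : ∀ j, G z v (Y j) = Y.repr v j := by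
      intro j
      conv_lhs => rw [← Y.sum_repr v]
      rw [map_sum, sum_apply]
      simp only [map_smul, smul_apply, smul_eq_mul, hY _ j]
      simp
    rw [h3, h3]
    conv_lhs => rw [← Y.sum_repr v]
    rw [Fin.sum_univ_two]
  rw [hv, Fin.sum_univ_two] at h1
  rw [Fin.sum_univ_two, Fin.sum_univ_two, Fin.sum_univ_two, Fin.sum_univ_two,
    H329.secG_self, H329.secG_self]
  have h4 : secG G z (Y 0) v = G z v (Y 1) ^ 2 * secG G z (Y 0) (Y 1) := by
    conv_lhs => rw [h2]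
    exact secG_plane h hz _ _ _ _
  have h5 : secG G z (Y 1) v = G z v (Y 0) ^ 2 * secG G z (Y 1) (Y 0) := by
    conv_lhs => rw [h2, add_comm]
    exact secG_plane h hz _ _ _ _
  rw [h4, h5, H329.secG_symm h hz (Y 1) (Y 0)]
  linear_combination (2 * secG G z (Y 0) (Y 1)) * h1

/-- The curvature of the conformal metric `e^{2f} G` on a surface. -/
theorem conf_sum (hE : Module.finrank ℝ E = 2) (h : LocalRiem G U) (hz : z ∈ U) {f : E → ℝ}
    (hf : ContDiffOn ℝ ∞ f U) {K : ℝ}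
    (hK : ∀ b : Module.Basis (Fin (Module.finrank ℝ E)) ℝ E, ON (G z) b →
      K ≤ ∑ i, ∑ j, secG G z (b i) (b j))
    (Y : Module.Basis (Fin (Module.finrank ℝ E)) ℝ E)
    (hY : ON (Real.exp (2 * f z) • G z) Y) {v : E} (hv : (Real.exp (2 * f z) • G z) v v = 1) :
    Real.exp (-(2 * f z)) * (K / 2 - lapG G f z) ≤
      ∑ i, secG (fun y => Real.exp (2 * f y) • G y) z (Y i) v := by
  obtain ⟨b, hb⟩ := exists_on_basis (g := G z) (h.symm z hz) (h.pos z hz)
  have hr : ContDiffOn ℝ ∞ (fun y => Real.exp (2 * f y)) U := (contDiffOn_const.mul hf).exp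
  have h1 := (H265.twb E U G (fun y => Real.exp (2 * f y)) f z 2 b Y (by rw [hE]; norm_num) hz h
    hr (fun y _ => Real.exp_pos _) (fun y _ => by rw [Real.log_exp]; ring) hb
    (fun i j => by simpa using hY i j)).1
  have hR : LocalRiem (fun y => Real.exp (2 * f y) • G y) U :=
    H265.localRiem_cf h hr (fun y _ => Real.exp_pos _)
  have h2 := sum_secG_two hE hR hz Y hY hv
  have h3 := hK b hb
  rw [h1] at h2
  have h4 : (Real.exp (2 * f z))⁻¹ = Real.exp (-(2 * f z)) := (Real.exp_neg _).symm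
  rw [h4] at h2
  have h5 : 0 < Real.exp (-(2 * f z)) := Real.exp_pos _
  nlinarith [mul_le_mul_of_nonneg_left h3 h5.le]

/-- Cauchy-Schwarz -/
theorem gam_cs (h : LocalRiem G U) (hz : z ∈ U) (f : E → ℝ) (v : E) :
    fderiv ℝ f z v ^ 2 ≤ gamG G f f z * G z v v := by
  obtain ⟨b, hb⟩ := exists_on_basis (g := G z) (h.symm z hz) (h.pos z hz)
  rw [H265.gam_onb h hz hb, ← parseval b hb v]
  have h3 : ∀ j, G z v (b j) = b.repr v j := by
    intro j
    conv_lhs => rw [← b.sum_repr v]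
    rw [map_sum, sum_apply]
    simp only [map_smul, smul_apply, smul_eq_mul, hb _ j]
    simp
  have h4 : fderiv ℝ f z v = ∑ i, fderiv ℝ f z (b i) * G z v (b i) := by
    conv_lhs => rw [← b.sum_repr v]
    rw [map_sum]
    refine Finset.sum_congr rfl fun i _ => ?_
    rw [map_smul, smul_eq_mul, h3]
    ring
  rw [h4]
  refine (Finset.sum_mul_sq_le_sq_mul_sq _ _ _).trans (le_of_eq ?_)
  congr 1
  exact Finset.sum_congr rfl fun i _ => sq _

end flat

section mfd

variable {E : Type} [NormedAddCommGroup E] [NormedSpace ℝ E] [FiniteDimensional ℝ E]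
  {N : Type} [MetricSpace N] [ChartedSpace E N]
  [RiemannianBundle (fun x : N => TangentSpace 𝓘(ℝ, E) x)]
  [IsManifold 𝓘(ℝ, E) ∞ N]
  [IsContMDiffRiemannianBundle 𝓘(ℝ, E) ∞ E (fun x : N => TangentSpace 𝓘(ℝ, E) x)]

/-- The curvature of the conformal surface `e^{2 φ'} h`, where `φ' = φ` near the point. -/
theorem curv_lower (hE : Module.finrank ℝ E = 2) {κ β : ℝ} (hβ : 0 ≤ β) {φ φ' : N → ℝ}
    (hφ : ContMDiff 𝓘(ℝ, E) 𝓘(ℝ, ℝ) ∞ φ) (hφ' : ContMDiff 𝓘(ℝ, E) 𝓘(ℝ, ℝ) ∞ φ')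
    (hS : ScalGEf E N (fun p => 2 * κ + 2 * Lap E φ p + 2 * β * Gam E φ φ p))
    {e : OpenPartialHomeomorph N E} (he : e ∈ maximalAtlas 𝓘(ℝ, E) ∞ N) {z : E}
    (hz : z ∈ e.target) (heq : φ' =ᶠ[𝓝 (e.symm z)] φ)
    (Y : Module.Basis (Fin (Module.finrank ℝ E)) ℝ E)
    (hY : ON (Real.exp (2 * φ' (e.symm z)) • chartG e z) Y) {v : E}
    (hv : (Real.exp (2 * φ' (e.symm z)) • chartG e z) v v = 1) :
    Real.exp (-(2 * φ' (e.symm z))) * κ + β * fderiv ℝ (φ' ∘ e.symm) z v ^ 2 ≤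
      ∑ i, secG (fun y => Real.exp (2 * φ' (e.symm y)) • chartG e y) z (Y i) v := by
  have hR : LocalRiem (chartG e) e.target := H973.localRiem_chartG he
  have hf : ContDiffOn ℝ ∞ (φ' ∘ e.symm) e.target := H755.contDiffOn_chart he hφ'
  have hp : e.symm z ∈ e.source := e.map_target hz
  have hgerm : (φ' ∘ e.symm) =ᶠ[𝓝 z] (φ ∘ e.symm) :=
    (e.symm.continuousAt hz).eventually heq
  have hlap : lapG (chartG e) (φ' ∘ e.symm) z = lapG (chartG e) (φ ∘ e.symm) z := by
    rw [lapG, lapG, opG, opG, hessG, hessG, hgerm.fderiv_eq, hgerm.fderiv.fderiv_eq]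
  have hgam : gamG (chartG e) (φ' ∘ e.symm) (φ' ∘ e.symm) z =
      gamG (chartG e) (φ ∘ e.symm) (φ ∘ e.symm) z := by
    rw [gamG, gamG, gradG, gradG, hgerm.fderiv_eq]
  have h1 := conf_sum hE hR hz hf (K := 2 * κ + 2 * lapG (chartG e) (φ ∘ e.symm) z +
    2 * β * gamG (chartG e) (φ ∘ e.symm) (φ ∘ e.symm) z) (by
      intro b hb
      obtain ⟨Γ, hΓ, H⟩ := hS e he z hz
      have h2 := H b hb
      simp only at h2
      rw [H755.Lap_chart hφ he hp, H755.Gam_chart hφ hφ he hp, e.right_inv hz] at h2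
      refine h2.trans (le_of_eq ?_)
      exact Finset.sum_congr rfl fun i _ => Finset.sum_congr rfl fun j _ =>
        sectNum_eq he hz hΓ _ _) Y hY hv
  have h2 : Real.exp (-(2 * (φ' ∘ e.symm) z)) * ((2 * κ + 2 * lapG (chartG e) (φ ∘ e.symm) z +
      2 * β * gamG (chartG e) (φ ∘ e.symm) (φ ∘ e.symm) z) / 2 - lapG (chartG e) (φ' ∘ e.symm) z) =
      Real.exp (-(2 * φ' (e.symm z))) * κ + β * (gamG (chartG e) (φ' ∘ e.symm) (φ' ∘ e.symm) z *
        Real.exp (-(2 * φ' (e.symm z)))) := by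
    rw [hlap, hgam]
    simp only [Function.comp_apply]
    ring
  rw [h2] at h1
  refine le_trans ?_ h1
  have h3 := gam_cs hR hz (φ' ∘ e.symm) v
  have h4 : Real.exp (2 * φ' (e.symm z)) * chartG e z v v = 1 := by simpa using hv
  have h5 : chartG e z v v = Real.exp (-(2 * φ' (e.symm z))) := by
    rw [Real.exp_neg]
    exact eq_inv_of_mul_eq_one_right h4
  rw [h5] at h3
  have h6 := mul_le_mul_of_nonneg_left h3 hβ
  linarith

end mfd

end Vale.Agent.P210.R2.H465
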