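import Vale.Agent.P210.R2.H465.SfA
import Vale.Agent.P210.R2.H973.Ricf
import Mathlib.Analysis.Calculus.MeanValue

/-!
# Smooth functions and lengths along minimal geodesics
-/

open scoped Manifold ContDiff Topology Bundle
open Set Metric Filter Bundle IsManifold MeasureTheory Manifold Asymptotics

set_option maxSynthPendingDepth 3

noncomputable section

namespace Vale.Agent.P210.R2.H465

open Vale.Agent.P210.R2.H53 Vale.Agent.P210.H204

section

variable {E : Type} [NormedAddCommGroup E] [NormedSpace ℝ E] [FiniteDimensional ℝ E]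
  {M : Type} [MetricSpace M] [ChartedSpace E M]
  [RiemannianBundle (fun x : M => TangentSpace 𝓘(ℝ, E) x)]
  [IsManifold 𝓘(ℝ, E) ∞ M]
  [IsContMDiffRiemannianBundle 𝓘(ℝ, E) ∞ E (fun x : M => TangentSpace 𝓘(ℝ, E) x)]
  [IsRiemannianManifold 𝓘(ℝ, E) M]

/-- smooth functions along minimal geodesics -/
theorem along_geo (hGEO : Stmt.GEO) {c : ℝ → M} {ℓ : ℝ} (hℓ : 0 < ℓ) (hc : MinGeo c 0 ℓ)
    {F : M → ℝ} (hF : ∀ e ∈ maximalAtlas 𝓘(ℝ, E) ∞ M, ContDiffOn ℝ ∞ (F ∘ e.symm) e.target) :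
    ∃ u' : ℝ → ℝ, ContinuousOn u' (Icc 0 ℓ) ∧
      (∀ s ∈ Icc 0 ℓ, HasDerivWithinAt (fun t => F (c t)) (u' s) (Icc 0 ℓ) s) ∧
      ∀ s ∈ Ioo 0 ℓ, ∀ e ∈ maximalAtlas 𝓘(ℝ, E) ∞ M, c s ∈ e.source → ∀ v : E,
        HasDerivAt (fun t => e (c t)) v s → u' s = fderiv ℝ (F ∘ e.symm) (e (c s)) v := by
  have hud : UniqueDiffOn ℝ (Icc 0 ℓ) := uniqueDiffOn_Icc hℓ
  have hloc : ∀ s ∈ Icc 0 ℓ, ∃ δ > 0, ∃ D : ℝ → ℝ, ContinuousAt D s ∧
      ∀ t ∈ Icc 0 ℓ, |t - s| < δ → HasDerivWithinAt (fun t => F (c t)) (D t) (Icc 0 ℓ) t := by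
    intro s hs
    obtain ⟨δ, hδ, w, w', hgeo, hcw⟩ := (hGEO E M).2.1 c 0 ℓ s hℓ hc hs (chartAt E (c s))
      (chart_mem_maximalAtlas (c s)) (mem_chart_source E (c s))
    set e := chartAt E (c s) with he
    have hem : e ∈ maximalAtlas 𝓘(ℝ, E) ∞ M := chart_mem_maximalAtlas (c s)
    have hFe := hF e hem
    have hFd : ContinuousOn (fderiv ℝ (F ∘ e.symm)) e.target :=
      (hFe.fderiv_of_isOpen e.open_target (m := ∞) (by simp)).continuousOn
    refine ⟨δ, hδ, fun t => fderiv ℝ (F ∘ e.symm) (w t) (w' t), ?_, fun t ht hts => ?_⟩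
    · have hs0 : |s - s| < δ := by simpa using hδ
      have h1 := hgeo s hs0
      have h2 : ContinuousAt (fderiv ℝ (F ∘ e.symm)) (w s) :=
        hFd.continuousAt (e.open_target.mem_nhds h1.2.2.1)
      exact (ContinuousAt.comp (f := w) h2 h1.1.continuousAt).clm_apply h1.2.1.continuousAt
    · have h1 := hgeo t hts
      have h2 : HasFDerivAt (F ∘ e.symm) (fderiv ℝ (F ∘ e.symm) (w t)) (w t) :=
        ((hFe.contDiffAt (e.open_target.mem_nhds h1.2.2.1)).differentiableAt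
          (by simp)).hasFDerivAt
      have h3 : HasDerivWithinAt (fun r => (F ∘ e.symm) (w r))
          (fderiv ℝ (F ∘ e.symm) (w t) (w' t)) (Icc 0 ℓ) t :=
        (h2.comp_hasDerivAt t h1.1).hasDerivWithinAt
      have h4 : ∀ r ∈ Icc 0 ℓ, |r - s| < δ → F (c r) = (F ∘ e.symm) (w r) := by
        intro r hr hrs
        obtain ⟨h5, h6⟩ := hcw r hr hrs
        rw [← h6, Function.comp_apply, e.left_inv h5]
      refine h3.congr_of_eventuallyEq ?_ (h4 t ht hts)
      have h5 : ∀ᶠ r in 𝓝 t, |r - s| < δ := by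
        have : ContinuousAt (fun r : ℝ => |r - s|) t := by fun_prop
        exact this.eventually_lt_const hts
      filter_upwards [nhdsWithin_le_nhds h5, self_mem_nhdsWithin] with r h6 h7
      exact h4 r h7 h6
  refine ⟨derivWithin (fun t => F (c t)) (Icc 0 ℓ), ?_, ?_, ?_⟩
  · intro s hs
    obtain ⟨δ, hδ, D, hD, hD'⟩ := hloc s hs
    have h1 : ∀ t ∈ Icc 0 ℓ, |t - s| < δ → derivWithin (fun t => F (c t)) (Icc 0 ℓ) t = D t :=
      fun t ht hts => (hD' t ht hts).derivWithin (hud t ht)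
    refine (hD.continuousWithinAt (s := Icc 0 ℓ)).congr_of_eventuallyEq ?_
      (h1 s hs (by simpa using hδ))
    have h5 : ∀ᶠ r in 𝓝 s, |r - s| < δ := by
      have : ContinuousAt (fun r : ℝ => |r - s|) s := by fun_prop
      exact this.eventually_lt_const (by simpa using hδ)
    filter_upwards [nhdsWithin_le_nhds h5, self_mem_nhdsWithin] with r h6 h7
    exact h1 r h7 h6
  · intro s hs
    obtain ⟨δ, hδ, D, -, hD'⟩ := hloc s hs
    exact (hD' s hs (by simpa using hδ)).differentiableWithinAt.hasDerivWithinAt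
  · intro s hs e he hse v hv
    have hsI : s ∈ Icc 0 ℓ := Ioo_subset_Icc_self hs
    obtain ⟨δ, hδ, D, -, hD'⟩ := hloc s hsI
    have h1 := (hD' s hsI (by simpa using hδ)).differentiableWithinAt.hasDerivWithinAt
    have h2 : HasFDerivAt (F ∘ e.symm) (fderiv ℝ (F ∘ e.symm) (e (c s))) (e (c s)) :=
      (((hF e he).contDiffAt (e.open_target.mem_nhds (e.map_source hse))).differentiableAt
        (by simp)).hasFDerivAt
    have h3 : HasDerivAt (fun r => (F ∘ e.symm) (e (c r)))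
        (fderiv ℝ (F ∘ e.symm) (e (c s)) v) s := h2.comp_hasDerivAt s hv
    have h4 : ContinuousAt c s := H973.minGeo_continuousAt hc hs
    have h5 : HasDerivAt (fun r => F (c r)) (fderiv ℝ (F ∘ e.symm) (e (c s)) v) s := by
      refine h3.congr_of_eventuallyEq ?_
      filter_upwards [h4.preimage_mem_nhds (e.open_source.mem_nhds hse)] with r hr
      rw [Function.comp_apply, e.left_inv hr]
    exact (hud s hsI).eq_deriv _ h1 h5.hasDerivWithinAt

end

section len

variable {E : Type} [NormedAddCommGroup E] [NormedSpace ℝ E] [FiniteDimensional ℝ E]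
  {N : Type} [MetricSpace N] [ChartedSpace E N]
  [RiemannianBundle (fun x : N => TangentSpace 𝓘(ℝ, E) x)]
  [IsManifold 𝓘(ℝ, E) ∞ N]
  [IsContMDiffRiemannianBundle 𝓘(ℝ, E) ∞ E (fun x : N => TangentSpace 𝓘(ℝ, E) x)]
  [IsRiemannianManifold 𝓘(ℝ, E) N]
  {M : Type} [MetricSpace M] [ChartedSpace E M]
  [RiemannianBundle (fun x : M => TangentSpace 𝓘(ℝ, E) x)]
  [IsManifold 𝓘(ℝ, E) ∞ M]
  [IsContMDiffRiemannianBundle 𝓘(ℝ, E) ∞ E (fun x : M => TangentSpace 𝓘(ℝ, E) x)]
  [IsRiemannianManifold 𝓘(ℝ, E) M]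

/-- The length of a minimal geodesic of a conformal metric, in the other metric. -/
theorem len_le (hJET : Stmt.JET) (hGEO : Stmt.GEO) {φ : N → ℝ} (h : N ≃ₜ M)
    (hch : ∀ e ∈ maximalAtlas 𝓘(ℝ, E) ∞ M, ∃ e' ∈ maximalAtlas 𝓘(ℝ, E) ∞ N,
      e'.target = e.target ∧ (∀ x, h x ∈ e.source ↔ x ∈ e'.source) ∧ (∀ x, e (h x) = e' x) ∧
      (∀ z, e.symm z = h (e'.symm z)) ∧
      ∀ z, chartG e z = Real.exp (2 * φ (e'.symm z)) • chartG e' z)
    {c : ℝ → M} {ℓ : ℝ} (hℓ : 0 < ℓ) (hc : MinGeo c 0 ℓ) {v : ℝ → ℝ} (hv : Continuous v)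
    (hvc : ∀ s ∈ Icc 0 ℓ, v s = Real.exp (-φ (h.symm (c s)))) {s : ℝ} (hs : s ∈ Icc 0 ℓ) :
    dist (h.symm (c 0)) (h.symm (c s)) ≤ ∫ t in (0 : ℝ)..s, v t := by
  have hcc : ContinuousOn c (Icc 0 ℓ) := H973.minGeo_continuousOn hc
  have hf : ContinuousOn (fun s => dist (h.symm (c 0)) (h.symm (c s))) (Icc 0 ℓ) :=
    (continuous_const.dist continuous_id).comp_continuousOn
      (h.symm.continuous.comp_continuousOn hcc)
  have hB : ∀ x, HasDerivAt (fun s => ∫ t in (0 : ℝ)..s, v t) (v x) x := fun x =>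
    (hv.integral_hasStrictDerivAt 0 x).hasDerivAt
  refine image_le_of_liminf_slope_right_le_deriv_boundary hf (by simp)
    (fun x _ => (hB x).continuousAt.continuousWithinAt) (fun x _ => (hB x).hasDerivWithinAt)
    ?_ hs
  intro x hx r hr
  have hxI : x ∈ Icc 0 ℓ := ⟨hx.1, hx.2.le⟩
  obtain ⟨δ, hδ, w, w', hgeo, hcw⟩ := (hGEO E M).2.1 c 0 ℓ x hℓ hc hxI (chartAt E (c x))
    (chart_mem_maximalAtlas (c x)) (mem_chart_source E (c x))
  set e := chartAt E (c x) with he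
  have hem : e ∈ maximalAtlas 𝓘(ℝ, E) ∞ M := chart_mem_maximalAtlas (c x)
  obtain ⟨e', he', htar, -, -, hsymm, hG⟩ := hch e hem
  have hx0 : GeoAt e w w' x := hgeo x (by simpa using hδ)
  have hz : w x ∈ e'.target := htar ▸ hx0.2.2.1
  have hpt : ∀ t ∈ Icc 0 ℓ, |t - x| < δ → h.symm (c t) = e'.symm (w t) := by
    intro t ht htx
    obtain ⟨h1, h2⟩ := hcw t ht htx
    have h3 : c t = h (e'.symm (w t)) := by rw [← hsymm, ← h2, e.left_inv h1]
    exact (congrArg h.symm h3).trans (h.symm_apply_apply _)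
  have hptx := hpt x hxI (by simpa using hδ)
  have hvx : v x = Real.exp (-φ (e'.symm (w x))) := by rw [hvc x hxI, hptx]
  have hvx0 : 0 < v x := by rw [hvx]; exact Real.exp_pos _
  -- the norm of the velocity
  have hvel : √(chartG e' (w x) (w' x) (w' x)) = v x := by
    have h1 := hx0.2.2.2
    rw [hG] at h1
    simp only [smul_apply, smul_eq_mul] at h1
    have h2 : chartG e' (w x) (w' x) (w' x) = v x ^ 2 := by
      rw [hvx, ← Real.exp_nat_mul]
      have h3 : Real.exp (2 * φ (e'.symm (w x))) ≠ 0 := (Real.exp_pos _).ne'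
      have h4 : chartG e' (w x) (w' x) (w' x) = (Real.exp (2 * φ (e'.symm (w x))))⁻¹ := by
        field_simp
        linarith
      rw [h4, ← Real.exp_neg]
      congr 1
      push_cast
      ring
    rw [h2, Real.sqrt_sq hvx0.le]
  set ε : ℝ := (r / v x - 1) / 2 with hε
  have hε0 : 0 < ε := by
    have : 1 < r / v x := by rwa [one_lt_div hvx0]
    rw [hε]; linarith
  have hεr : (1 + ε) * v x < r := by
    have : (1 + ε) * v x = (v x + r) / 2 := by rw [hε]; field_simp; ring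
    rw [this]; linarith
  -- the slope in the chart
  have hsl : Tendsto (fun t => √(chartG e' (w x) (slope w x t) (slope w x t))) (𝓝[>] x)
      (𝓝 (v x)) := by
    have h1 : Tendsto (slope w x) (𝓝[>] x) (𝓝 (w' x)) :=
      (hasDerivAt_iff_tendsto_slope.1 hx0.1).mono_left
        (nhdsWithin_mono _ fun t ht => (ne_of_gt ht))
    rw [← hvel]
    have h2 : Continuous fun u : E => √(chartG e' (w x) u u) := by fun_prop
    exact (h2.tendsto (w' x)).comp h1
  have h1 : ∀ᶠ t in 𝓝[>] x, (1 + ε) * √(chartG e' (w x) (slope w x t) (slope w x t)) < r :=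
    (hsl.const_mul (1 + ε)).eventually_lt_const hεr
  have h2 : ∀ᶠ t in 𝓝[>] x, dist (e'.symm (w t)) (e'.symm (w x)) ≤
      (1 + ε) * √(chartG e' (w x) (w t - w x) (w t - w x)) := by
    have h3 : Tendsto (fun t => (w t, w x)) (𝓝[>] x) (𝓝 (w x, w x)) :=
      ((hx0.1.continuousAt.tendsto.prodMk_nhds tendsto_const_nhds)).mono_left
        nhdsWithin_le_nhds
    exact h3.eventually ((hJET E N).2.2.1 e' he' (w x) hz ε hε0)
  have h3 : ∀ᶠ t in 𝓝[>] x, t ∈ Ioo x (min ℓ (x + δ)) :=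
    Ioo_mem_nhdsGT (lt_min hx.2 (by linarith))
  refine Eventually.frequently ?_
  filter_upwards [h1, h2, h3] with t h4 h5 h6
  have htℓ : t ∈ Icc 0 ℓ := ⟨hx.1.trans h6.1.le, h6.2.le.trans (min_le_left _ _)⟩
  have htx : |t - x| < δ := by
    rw [abs_of_pos (by linarith [h6.1])]
    linarith [h6.2.trans_le (min_le_right _ _)]
  have hpos : 0 < t - x := by linarith [h6.1]
  have h7 : w t - w x = (t - x) • slope w x t := (sub_smul_slope w x t).symm
  rw [h7] at h5
  have h8 : √(chartG e' (w x) ((t - x) • slope w x t) ((t - x) • slope w x t)) =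
      (t - x) * √(chartG e' (w x) (slope w x t) (slope w x t)) := by
    simp only [map_smul, smul_apply, smul_eq_mul]
    rw [← mul_assoc, Real.sqrt_mul (mul_self_nonneg _), Real.sqrt_mul_self hpos.le]
  rw [h8, ← hpt t htℓ htx, ← hptx] at h5
  have h9 : dist (h.symm (c 0)) (h.symm (c t)) - dist (h.symm (c 0)) (h.symm (c x)) ≤
      dist (h.symm (c t)) (h.symm (c x)) := by
    have := dist_triangle (h.symm (c 0)) (h.symm (c x)) (h.symm (c t))
    rw [dist_comm (h.symm (c x))] at this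
    linarith
  rw [slope_def_field, div_lt_iff₀ hpos]
  nlinarith

end len

end Vale.Agent.P210.R2.H465
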