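import Vale.Agent.P210.R2.H465.SfB
import Vale.Agent.P210.R2.H465.SfC
import Vale.Agent.P210.R2.H465.SfD
import Vale.Agent.P210.R2.H53.Step
import Vale.Agent.P210.R2.H265.Jet
import Vale.Agent.P210.R2.H196.Geo
import Mathlib.Geometry.Manifold.PartitionOfUnity

/-!
# The diameter of a surface with `κ + Δφ + |∇φ|²/2 ≤ K`
-/

open scoped Manifold ContDiff Topology Bundle
open Set Metric Filter Bundle IsManifold MeasureTheory Manifold

set_option maxSynthPendingDepth 3

noncomputable section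

namespace Vale.Agent.P210.R2.H465

open Vale.Agent.P210.R2.H53 Vale.Agent.P210.H204

theorem alg_g {u u' η η' κ δ K : ℝ} (hδ : 0 < δ)
    (hK : Real.exp (-(2 * u)) * κ + (1 + δ) / 4 * u' ^ 2 ≤ K) :
    (Real.exp (u / 2) * (u' / 2 * η + η' * Real.exp (-u))) ^ 2 -
      (Real.exp (u / 2) * η) ^ 2 * K ≤ Real.exp (-u) * ((1 + 1 / δ) * η' ^ 2 - κ * η ^ 2) := by
  have h1 : Real.exp (u / 2) ^ 2 = Real.exp u := by
    rw [← Real.exp_nat_mul]
    congr 1
    push_cast
    ring
  have h2 : Real.exp (-(2 * u)) = Real.exp (-u) ^ 2 := by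
    rw [← Real.exp_nat_mul]
    congr 1
    push_cast
    ring
  have h3 : Real.exp u * Real.exp (-u) = 1 := by rw [← Real.exp_add]; simp
  rw [h2] at hK
  rw [mul_pow, mul_pow, h1]
  set A := Real.exp u with hA
  set V := Real.exp (-u) with hV
  have hA0 : 0 < A := Real.exp_pos _
  have hV0 : 0 < V := Real.exp_pos _
  have h4 : A * η ^ 2 * (V ^ 2 * κ + (1 + δ) / 4 * u' ^ 2) ≤ A * η ^ 2 * K :=
    mul_le_mul_of_nonneg_left hK (by positivity)
  have h5 : V * ((1 + 1 / δ) * η' ^ 2 - κ * η ^ 2) - (A * (u' / 2 * η + η' * V) ^ 2 -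
      A * η ^ 2 * (V ^ 2 * κ + (1 + δ) / 4 * u' ^ 2)) =
      V / δ * (η' - δ * A * u' * η / 2) ^ 2 := by
    have h7 : V / δ * (η' - δ * A * u' * η / 2) ^ 2 = V * (1 / δ) * η' ^ 2 -
        (A * V) * u' * η * η' + (A * V) * (δ * A * u' ^ 2 * η ^ 2 / 4) := by
      field_simp
      ring
    rw [h7]
    linear_combination (-V * η' ^ 2 + V * κ * η ^ 2 - δ * A * η ^ 2 * u' ^ 2 / 4) * h3
  have h6 : 0 ≤ V / δ * (η' - δ * A * u' * η / 2) ^ 2 := by positivity
  linarith

section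

variable {E : Type} [NormedAddCommGroup E] [NormedSpace ℝ E] [FiniteDimensional ℝ E]
  {N : Type} [MetricSpace N] [ChartedSpace E N]
  [RiemannianBundle (fun x : N => TangentSpace 𝓘(ℝ, E) x)]
  [IsManifold 𝓘(ℝ, E) ∞ N]
  [IsContMDiffRiemannianBundle 𝓘(ℝ, E) ∞ E (fun x : N => TangentSpace 𝓘(ℝ, E) x)]
  [IsRiemannianManifold 𝓘(ℝ, E) N]

omit [RiemannianBundle (fun x : N => TangentSpace 𝓘(ℝ, E) x)]
  [IsContMDiffRiemannianBundle 𝓘(ℝ, E) ∞ E (fun x : N => TangentSpace 𝓘(ℝ, E) x)]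
  [IsRiemannianManifold 𝓘(ℝ, E) N] in
/-- cutting off a smooth function -/
theorem exists_cut [ProperSpace N] {φ : N → ℝ} (hφ : ContMDiff 𝓘(ℝ, E) 𝓘(ℝ, ℝ) ∞ φ) (p : N)
    (R : ℝ) : ∃ (φ' : N → ℝ) (B : ℝ), ContMDiff 𝓘(ℝ, E) 𝓘(ℝ, ℝ) ∞ φ' ∧
      (∀ x ∈ ball p R, φ' =ᶠ[𝓝 x] φ) ∧ ∀ x, -B ≤ φ' x := by
  have hsub : closedBall p R ⊆ interior (closedBall p (R + 1)) :=
    (closedBall_subset_ball (by linarith)).trans ball_subset_interior_closedBall
  obtain ⟨χ, hχ1, hχ0, hχ⟩ := exists_contMDiffMap_one_nhds_of_subset_interior (n := ⊤) 𝓘(ℝ, E)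
    (isClosed_closedBall (x := p) (ε := R)) hsub
  obtain ⟨C, hC⟩ := (isCompact_closedBall p (R + 1)).exists_bound_of_continuousOn
    hφ.continuous.continuousOn
  refine ⟨fun x => χ x * φ x, |C|, χ.contMDiff.mul hφ, fun x hx => ?_, fun x => ?_⟩
  · have h1 := hχ1.filter_mono (nhds_le_nhdsSet (ball_subset_closedBall hx))
    filter_upwards [h1] with y hy
    rw [hy, one_mul]
  · by_cases hx : x ∈ closedBall p (R + 1)
    · have h1 := hC x hx
      have h2 := hχ x
      rw [Real.norm_eq_abs] at h1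
      have h3 : |χ x * φ x| ≤ |C| := by
        rw [abs_mul, abs_of_nonneg h2.1]
        have h4 : |φ x| ≤ |C| := h1.trans (le_abs_self C)
        have h5 : 0 ≤ |φ x| := abs_nonneg _
        nlinarith [h2.2]
      exact (abs_le.1 h3).1
    · simp only [hχ0 x hx, zero_mul]
      linarith [abs_nonneg C]

/-- distances on a complete surface with `κ + Δφ + (1 + δ) |∇φ|²/4 ≤ K` are at most
`√((1 + 1/δ)/κ) π` -/
theorem surf_le [CompleteSpace N] [ConnectedSpace N] (hE : Module.finrank ℝ E = 2)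
    {κ δ : ℝ} (hκ : 0 < κ) (hδ : 0 < δ) {φ : N → ℝ} (hφ : ContMDiff 𝓘(ℝ, E) 𝓘(ℝ, ℝ) ∞ φ)
    (hS : ScalGEf E N (fun p => 2 * κ + 2 * Lap E φ p + 2 * ((1 + δ) / 4) * Gam E φ φ p))
    (p x0 : N) : κ * dist p x0 ^ 2 ≤ (1 + 1 / δ) * Real.pi ^ 2 := by
  by_contra hcon0
  push Not at hcon0
  set R := dist p x0 with hR
  have hR0 : 0 < R := by
    rcases (dist_nonneg (x := p) (y := x0)).eq_or_lt with h0 | h0
    · rw [← hR] at h0
      rw [← h0] at hcon0
      have h1 := Real.pi_pos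
      have h2 : 0 < (1 + 1 / δ) * Real.pi ^ 2 := by positivity
      nlinarith
    · exact h0
  have hd : R ≤ dist p x0 := le_rfl
  have hJET : Stmt.JET := H265.jet_holds
  have hGEO : Stmt.GEO := H196.geo
  have hSTEP : Stmt.STEP := step_holds hJET
  have : ProperSpace N := properSpace_riemannian E N
  obtain ⟨φ', B, hφ', hφeq, hB⟩ := exists_cut hφ p R
  have hr : ∀ x, 0 < Real.exp (2 * φ' x) := fun x => Real.exp_pos _
  have hs : ContMDiff 𝓘(ℝ, E) 𝓘(ℝ, ℝ) ∞ fun x => Real.exp (2 * φ' x) :=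
    Real.contDiff_exp.contMDiff.comp (contMDiff_const.mul hφ')
  obtain ⟨N', _, _, _, _, _, _, h, hch, hlip⟩ := exists_conformal (E := E) hs hr
  have hlip' := hlip (Real.exp (-B)) (Real.exp_pos _) (fun x => by
    rw [← Real.exp_nat_mul]
    refine Real.exp_le_exp.2 ?_
    push_cast
    linarith [hB x])
  have : CompleteSpace N' := by
    refine Metric.complete_of_cauchySeq_tendsto fun y hy => ?_
    have h1 : CauchySeq fun n => h.symm (y n) := by
      rw [Metric.cauchySeq_iff] at hy ⊢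
      intro ε hε
      obtain ⟨n0, hn0⟩ := hy (Real.exp (-B) * ε) (by positivity)
      refine ⟨n0, fun m hm n hn => ?_⟩
      have h2 := hlip' (h.symm (y m)) (h.symm (y n))
      rw [h.apply_symm_apply, h.apply_symm_apply] at h2
      have h3 := h2.trans_lt (hn0 m hm n hn)
      exact lt_of_mul_lt_mul_left h3 (Real.exp_pos _).le
    obtain ⟨x, hx⟩ := cauchySeq_tendsto_of_complete h1
    refine ⟨h x, ?_⟩
    have h2 := (h.continuous.tendsto x).comp hx
    refine h2.congr fun n => ?_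
    simp
  have : ConnectedSpace N' := h.surjective.connectedSpace h.continuous
  obtain ⟨c, hc, hc0, hcℓ⟩ := ((hGEO E N').1 inferInstance inferInstance).2 (h p) (h x0)
  set ℓ := dist (h p) (h x0) with hℓdef
  have hpx : p ≠ x0 := by
    rintro rfl
    rw [dist_self] at hR
    linarith
  have hℓ : 0 < ℓ := dist_pos.2 (h.injective.ne hpx)
  have hF : ∀ e ∈ maximalAtlas 𝓘(ℝ, E) ∞ N',
      ContDiffOn ℝ ∞ ((fun x => φ' (h.symm x)) ∘ e.symm) e.target := by
    intro e he
    obtain ⟨e', he', htar, -, -, hsymm, -⟩ := hch e he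
    have h1 : (fun x => φ' (h.symm x)) ∘ e.symm = φ' ∘ e'.symm := by
      funext z
      simp [hsymm]
    rw [h1, ← htar]
    exact H755.contDiffOn_chart he' hφ'
  obtain ⟨u', hu'c, hu'd, hu'e⟩ := along_geo hGEO hℓ hc hF
  set u : ℝ → ℝ := fun s => φ' (h.symm (c s)) with hu
  have huc : ContinuousOn u (Icc 0 ℓ) := fun s hs => (hu'd s hs).continuousWithinAt
  -- the reparametrisation
  have hclc : Continuous fun s : ℝ => max 0 (min ℓ s) := by fun_prop
  have hclI : ∀ s : ℝ, max 0 (min ℓ s) ∈ Icc 0 ℓ := fun s =>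
    ⟨le_max_left _ _, max_le hℓ.le (min_le_left _ _)⟩
  have hcl : ∀ s ∈ Icc 0 ℓ, max 0 (min ℓ s) = s := fun s hs => by
    rw [min_eq_right hs.2, max_eq_right hs.1]
  set v : ℝ → ℝ := fun s => Real.exp (-u (max 0 (min ℓ s))) with hv
  have hvc : Continuous v := Real.continuous_exp.comp (huc.comp_continuous hclc hclI).neg
  have hveq : ∀ s ∈ Icc 0 ℓ, v s = Real.exp (-u s) := fun s hs => by
    rw [hv]
    simp only
    rw [hcl s hs]
  set t : ℝ → ℝ := fun s => ∫ r in (0 : ℝ)..s, v r with ht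
  have htd : ∀ s, HasDerivAt t (v s) s := fun s =>
    (hvc.integral_hasStrictDerivAt 0 s).hasDerivAt
  have ht0 : t 0 = 0 := by simp [ht]
  have hlen : ∀ s ∈ Icc 0 ℓ, dist p (h.symm (c s)) ≤ t s := by
    intro s hs
    have h1 := len_le hJET hGEO (φ := φ') h hch hℓ hc hvc hveq hs
    rw [hc0, h.symm_apply_apply] at h1
    exact h1
  -- the first exit time
  have hfc : ContinuousOn (fun s => dist p (h.symm (c s))) (Icc 0 ℓ) :=
    (continuous_const.dist continuous_id).comp_continuousOn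
      (h.symm.continuous.comp_continuousOn (H973.minGeo_continuousOn hc))
  obtain ⟨s1, ⟨hs1, hs1'⟩, hs1min⟩ : ∃ s1, IsLeast (Icc 0 ℓ ∩
      (fun s => dist p (h.symm (c s))) ⁻¹' Ici R) s1 := by
    refine IsCompact.exists_isLeast ?_ ⟨ℓ, ⟨hℓ.le, le_rfl⟩, ?_⟩
    · exact isCompact_Icc.of_isClosed_subset
        (hfc.preimage_isClosed_of_isClosed isClosed_Icc isClosed_Ici) inter_subset_left
    · show R ≤ dist p (h.symm (c ℓ))
      rw [hcℓ, h.symm_apply_apply]
  have hs1'' : R ≤ dist p (h.symm (c s1)) := hs1'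
  have hs10 : 0 < s1 := by
    refine lt_of_le_of_ne hs1.1 ?_
    rintro rfl
    rw [hc0, h.symm_apply_apply, dist_self] at hs1''
    linarith
  have hsub : Icc 0 s1 ⊆ Icc 0 ℓ := Icc_subset_Icc le_rfl hs1.2
  have hball : ∀ s ∈ Ioo 0 s1, h.symm (c s) ∈ ball p R := by
    intro s hs
    rw [mem_ball']
    by_contra hcon
    push Not at hcon
    have := hs1min ⟨hsub ⟨hs.1.le, hs.2.le⟩, hcon⟩
    linarith [hs.2]
  set T := t s1 with hT
  have hTR : R ≤ T := hs1''.trans (hlen s1 hs1)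
  have hT0 : 0 < T := hR0.trans_le hTR
  set a := Real.pi / T with ha
  have haT : a * T = Real.pi := by rw [ha]; field_simp
  have ha0 : 0 < a := div_pos Real.pi_pos hT0
  -- the weight
  have hψ : ∀ s ∈ Icc 0 s1, HasDerivWithinAt
      (fun s => Real.exp (u s / 2) * Real.sin (a * t s))
      (Real.exp (u s / 2) * (u' s / 2 * Real.sin (a * t s) + a * Real.cos (a * t s) * v s))
      (Icc 0 s1) s := by
    intro s hs
    have h1 : HasDerivWithinAt u (u' s) (Icc 0 s1) s := (hu'd s (hsub hs)).mono hsub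
    have h2 := (h1.div_const 2).exp
    have h3 : HasDerivWithinAt t (v s) (Icc 0 s1) s := (htd s).hasDerivWithinAt
    have h4 := h2.mul (h3.const_mul a).sin
    exact h4.congr_deriv (by ring)
  have hucs : ContinuousOn u (Icc 0 s1) := huc.mono hsub
  have htc : Continuous t := continuous_iff_continuousAt.2 fun s => (htd s).continuousAt
  have hψ' : ContinuousOn (fun s => Real.exp (u s / 2) *
      (u' s / 2 * Real.sin (a * t s) + a * Real.cos (a * t s) * v s)) (Icc 0 s1) := by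
    have h1 : ContinuousOn u' (Icc 0 s1) := hu'c.mono hsub
    have h2 : ContinuousOn t (Icc 0 s1) := htc.continuousOn
    have h3 : ContinuousOn v (Icc 0 s1) := hvc.continuousOn
    fun_prop
  have hgc : Continuous fun s => v s * ((1 + 1 / δ) * (a * Real.cos (a * t s)) ^ 2 -
      κ * Real.sin (a * t s) ^ 2) := by
    fun_prop
  have hstart : Fr E (c 0) c 0 (Real.exp (u 0 / 2) * Real.sin (a * t 0)) 0 := by
    rw [ht0, mul_zero, Real.sin_zero, mul_zero]
    exact Fr.start hJET _ _ _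
  have hprop := Fr_propagate hJET hGEO hSTEP hℓ hc le_rfl hs10.le hs1.2
    (g := fun s => v s * ((1 + 1 / δ) * (a * Real.cos (a * t s)) ^ 2 - κ * Real.sin (a * t s) ^ 2))
    (S := 0) hgc.continuousOn hψ hψ' (by
      intro s hs e he hcs v0 hder hunit Y hY
      have hsℓ : s ∈ Icc 0 ℓ := hsub ⟨hs.1.le, hs.2.le⟩
      have hsℓ' : s ∈ Ioo 0 ℓ := ⟨hs.1, hs.2.trans_le hs1.2⟩
      obtain ⟨e', he', htar, -, -, hsymm, hG⟩ := hch e he
      have hGfun : chartG e = fun y => Real.exp (2 * φ' (e'.symm y)) • chartG e' y := funext hG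
      set z := e (c s) with hz
      have hzt : z ∈ e'.target := htar ▸ e.map_source hcs
      have hpt : e'.symm z = h.symm (c s) := by
        have h1 : c s = h (e'.symm z) := by rw [← hsymm, hz, e.left_inv hcs]
        rw [h1, h.symm_apply_apply]
      have hfun : (fun x => φ' (h.symm x)) ∘ e.symm = φ' ∘ e'.symm := by
        funext z
        simp [hsymm]
      have h1 := hu'e s hsℓ' e he hcs v0 hder
      rw [hfun] at h1
      have h2 := curv_lower hE (by positivity) hφ hφ' hS he' hzt (by rw [hpt]; exact hφeq _ (hball s hs)) Y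
        (by rw [← hG]; exact hY) (v := v0) (by rw [← hG]; exact hunit)
      rw [← hGfun, ← h1, hpt] at h2
      have h3 := alg_g hδ (η := Real.sin (a * t s)) (η' := a * Real.cos (a * t s)) h2
      have hE1 : ((Module.finrank ℝ E : ℝ) - 1) = 1 := by rw [hE]; norm_num
      rw [hE1, mul_one, hveq s hsℓ]
      exact h3) hstart
  have hend : Real.exp (u s1 / 2) * Real.sin (a * t s1) = 0 := by
    rw [← hT, haT, Real.sin_pi, mul_zero]
  rw [hend] at hprop
  have hnn := hprop.nonneg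
  have hint : ∫ s in (0 : ℝ)..s1, v s * ((1 + 1 / δ) * (a * Real.cos (a * t s)) ^ 2 -
      κ * Real.sin (a * t s) ^ 2) = T / 2 * ((1 + 1 / δ) * a ^ 2 - κ) := by
    have h1 : ∀ s ∈ uIcc 0 s1, HasDerivAt (fun s =>
        (1 + 1 / δ) * a ^ 2 * (t s / 2 + Real.sin (2 * a * t s) / (4 * a)) -
        κ * (t s / 2 - Real.sin (2 * a * t s) / (4 * a)))
        (v s * ((1 + 1 / δ) * (a * Real.cos (a * t s)) ^ 2 - κ * Real.sin (a * t s) ^ 2)) s := by
      intro s _
      have h2 := htd s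
      have h3 := ((h2.const_mul (2 * a)).sin).div_const (4 * a)
      have h4 := (((h2.div_const 2).add h3).const_mul ((1 + 1 / δ) * a ^ 2)).sub
        (((h2.div_const 2).sub h3).const_mul κ)
      refine h4.congr_deriv ?_
      have h5 : Real.cos (2 * a * t s) = 2 * Real.cos (a * t s) ^ 2 - 1 := by
        rw [mul_assoc, Real.cos_two_mul]
      have h6 : Real.sin (a * t s) ^ 2 = 1 - Real.cos (a * t s) ^ 2 := Real.sin_sq _
      rw [h5, h6]
      field_simp
      ring
    rw [intervalIntegral.integral_eq_sub_of_hasDerivAt h1 (hgc.intervalIntegrable _ _), ht0, ← hT]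
    have h7 : Real.sin (2 * a * T) = 0 := by
      rw [mul_assoc, haT]
      exact Real.sin_two_pi
    rw [h7]
    simp
    ring
  rw [hint, zero_add] at hnn
  have h8 : 0 ≤ (1 + 1 / δ) * a ^ 2 - κ := by
    by_contra hc'
    push Not at hc'
    nlinarith
  have h9 : κ * T ^ 2 ≤ (1 + 1 / δ) * Real.pi ^ 2 := by
    rw [← haT]
    nlinarith [mul_nonneg h8 (sq_nonneg T)]
  have h10 : κ * R ^ 2 ≤ κ * T ^ 2 := by
    have : R ^ 2 ≤ T ^ 2 := pow_le_pow_left₀ hR0.le hTR 2
    nlinarith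
  linarith

end

end Vale.Agent.P210.R2.H465
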