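import Vale.Agent.P210.R2.H265.Tws

/-!
# The scalar curvature of twisted products, with the square of the second fundamental form
-/

open scoped Manifold ContDiff Topology Bundle ENNReal NNReal
open Set Metric Filter Bundle IsManifold MeasureTheory Manifold Asymptotics

set_option maxSynthPendingDepth 3
set_option linter.all false

noncomputable section

namespace Vale.Agent.P210.R2.H465

open Vale.Agent.P210.R2.H53 Vale.Agent.P210.R2.H973 Vale.Agent.P210.R2.H265

section flat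

variable {E V : Type} [NormedAddCommGroup E] [NormedSpace ℝ E] [FiniteDimensional ℝ E]
  [NormedAddCommGroup V] [NormedSpace ℝ V] [FiniteDimensional ℝ V] {U : Set E} {W : Set V}
  {H : E → E →L[ℝ] E →L[ℝ] ℝ} {κ : E × V → V →L[ℝ] V →L[ℝ] ℝ}
  {G : E × V → E × V →L[ℝ] E × V →L[ℝ] ℝ}

/-- the scalar curvature of a block metric, from above -/
theorem twa_strong (h : Blk U W H κ G) {x : E} {y : V} (hx : x ∈ U) (hy : y ∈ W)
    {bE : Module.Basis (Fin (Module.finrank ℝ E)) ℝ E}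
    {bV : Module.Basis (Fin (Module.finrank ℝ V)) ℝ V} (hE : ONB (H x) bE)
    (hV : ONB (κ (x, y)) bV) {b : Module.Basis (Fin (Module.finrank ℝ (E × V))) ℝ (E × V)}
    (hb : ONB (G (x, y)) b) :
    ∑ i, ∑ j, secG G (x, y) (b i) (b j) ≤
      ∑ i, ∑ j, secG (fun z => κ (x, z)) y (bV i) (bV j) +
      (∑ i, ∑ j, secG H x (bE i) (bE j) - 2 * lapG H (logd bV (fun z => κ (z, y))) x -
        (1 + (Module.finrank ℝ V : ℝ)⁻¹) *
          gamG H (logd bV (fun z => κ (z, y))) (logd bV (fun z => κ (z, y))) x) := by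
  rw [twa_eq h hx hy hE hV hb]
  set L := logd bV (fun z => κ (z, y)) with hL
  have hfam := h.baseFam hy
  have hV' : ∀ i j, (fun z => κ (z, y)) x (bV i) (bV j) = if i = j then 1 else 0 := hV
  have d1 : ∀ e, fderiv ℝ L x e = 1 / 2 * ∑ c, fderiv ℝ κ (x, y) (e, 0) (bV c) (bV c) := by
    intro e
    rw [hL, fderiv_logd hfam bV bV hx hV']
    simp only [h.bas1 hx hy]
  set k : ℝ := (Module.finrank ℝ V : ℝ) with hk
  have hk0 : 0 ≤ k := Nat.cast_nonneg _
  set R : ℝ := 1 / 4 * ∑ i, ∑ c, ∑ d, fderiv ℝ κ (x, y) (bE i, 0) (bV c) (bV d) ^ 2 with hR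
  have hR0 : 0 ≤ R := by positivity
  have hgam : gamG H L L x ≤ k * R := by
    rw [gam_onb h.hH hx hE, hR]
    simp only [d1]
    have h1 : ∀ i, (1 / 2 * ∑ c, fderiv ℝ κ (x, y) (bE i, 0) (bV c) (bV c)) *
        (1 / 2 * ∑ c, fderiv ℝ κ (x, y) (bE i, 0) (bV c) (bV c)) ≤
        k * (1 / 4) * ∑ c, ∑ d, fderiv ℝ κ (x, y) (bE i, 0) (bV c) (bV d) ^ 2 := by
      intro i
      have h2 : (∑ c, fderiv ℝ κ (x, y) (bE i, 0) (bV c) (bV c)) ^ 2 ≤
          k * ∑ c, fderiv ℝ κ (x, y) (bE i, 0) (bV c) (bV c) ^ 2 := by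
        have h5 := Finset.sum_mul_sq_le_sq_mul_sq Finset.univ (fun _ => (1 : ℝ))
          (fun c => fderiv ℝ κ (x, y) (bE i, 0) (bV c) (bV c))
        simpa [hk] using h5
      have h3 : ∑ c, fderiv ℝ κ (x, y) (bE i, 0) (bV c) (bV c) ^ 2 ≤
          ∑ c, ∑ d, fderiv ℝ κ (x, y) (bE i, 0) (bV c) (bV d) ^ 2 :=
        Finset.sum_le_sum fun c _ => Finset.single_le_sum
          (f := fun d => fderiv ℝ κ (x, y) (bE i, 0) (bV c) (bV d) ^ 2)
          (fun d _ => sq_nonneg _) (Finset.mem_univ c)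
      have h4 := mul_le_mul_of_nonneg_left h3 hk0
      nlinarith
    refine (Finset.sum_le_sum fun i _ => h1 i).trans (le_of_eq ?_)
    rw [← Finset.mul_sum]
    ring
  have hfin : k⁻¹ * gamG H L L x ≤ R := by
    rcases hk0.eq_or_lt with h0 | h0
    · rw [← h0, inv_zero, zero_mul]
      exact hR0
    · rw [inv_mul_le_iff₀ h0]
      exact hgam
  linarith

end flat

/-- the scalar curvature of twisted products -/
theorem twist_s {θ : ℝ} (hθ : 0 ≤ θ) :
    Stmt.ForT fun E _ _ _ V _ _ _ N _ _ _ _ _ _ F _ _ _ M _ _ _ _ _ _ w Φ =>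
    (∀ x, w x = 1) → ScalGE (E × V) M 1 → ∀ y : F, (Module.finrank ℝ V ≤ 1 ∨
      ∀ x : N, ScalLEAt (fibreMetric Φ x (chartAt V y)) (chartAt V y y) θ) →
    ∃ φ : N → ℝ, ContMDiff 𝓘(ℝ, E) 𝓘(ℝ, ℝ) ∞ φ ∧
      ScalGEf E N (fun p => (1 - θ) + 2 * Lap E φ p +
        (1 + (Module.finrank ℝ V : ℝ)⁻¹) * Gam E φ φ p) := by
  intro E _ _ _ V _ _ _ N _ _ _ _ _ _ F _ _ _ M _ _ _ _ _ _ w Φ hw hw0 hT hw1 hS y0 hfib
  set f : OpenPartialHomeomorph F V := chartAt V y0 with hfd
  have hf : f ∈ maximalAtlas 𝓘(ℝ, V) ∞ F := chart_mem_maximalAtlas y0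
  set y : V := chartAt V y0 y0 with hyd
  have hy : y ∈ f.target := mem_chart_target V y0
  set β := Module.finBasis ℝ V with hβ
  have hφ : ContMDiff 𝓘(ℝ, E) 𝓘(ℝ, ℝ) ∞ (phT Φ f y β) := contMDiff_phT hf hy
  refine ⟨phT Φ f y β, hφ, ?_⟩
  intro e he z hz
  have hΓ := isChristoffel_chris he hz
  refine ⟨fun u v => chris (chartG e) z u v, hΓ, fun b hb => ?_⟩
  simp only [sectNum_eq he hz hΓ]
  have hR : LocalRiem (chartG e) e.target := ⟨e.open_target, contDiffOn_chartG he,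
    fun z _ v w => chartG_symm e z v w, fun z hz v hv => chartG_pos he hz v hv⟩
  have hzy : ((z, y) : E × V) ∈ e.target ×ˢ f.target := ⟨hz, hy⟩
  have hp : e.symm z ∈ e.source := e.map_target hz
  have hez : e (e.symm z) = z := e.right_inv hz
  -- bases
  have hκ := localRiem_kap (Φ := Φ) he hf hz
  have hκF := locFam_kap (Φ := Φ) he hf hy
  have hpc := pch_mem (Φ := Φ) he hf
  have hzy' : ((z, y) : E × V) ∈ (pch Φ e f).target := by rw [pch_target]; exact hzy
  obtain ⟨bV, hbV⟩ := exists_onb (kap Φ e f (z, y)) (hκ.symm y hy) (hκ.pos y hy)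
  obtain ⟨bb, hbb⟩ := exists_onb (chartG (pch Φ e f) (z, y)) (fun v v' => cgs _ _ _ _)
    (fun v hv => chartG_pos hpc hzy' v hv)
  -- the curvature of the fibre
  have hfibre : ∑ i, ∑ j, secG (fun v => kap Φ e f (z, v)) y (bV i) (bV j) ≤ θ := by
    rcases hfib with h1 | h1
    · have : Subsingleton (Fin (Module.finrank ℝ V)) := Fin.subsingleton_iff_le_one.2 h1
      have h2 : ∑ i, ∑ j, secG (fun v => kap Φ e f (z, v)) y (bV i) (bV j) = 0 :=
        Finset.sum_eq_zero fun i _ => Finset.sum_eq_zero fun j _ => by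
          rw [Subsingleton.elim j i, H329.secG_self]
      rw [h2]
      exact hθ
    · exact scalLE_of hκ (fun y' hy' v v' => fibreMetric_eq he hf hz hy' v v') hy
        (h1 (e.symm z)) hbV
  -- the scalar curvature of the product
  have hscal : 1 ≤ ∑ i, ∑ j, secG (chartG (pch Φ e f)) (z, y) (bb i) (bb j) := by
    obtain ⟨Γ', hΓ', h1⟩ := hS (pch Φ e f) hpc (z, y) hzy'
    refine (h1 bb hbb).trans (le_of_eq ?_)
    exact Finset.sum_congr rfl fun i _ => Finset.sum_congr rfl fun j _ =>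
      sectNum_eq hpc hzy' hΓ' _ _
  -- the flat inequality
  have hB : Blk e.target f.target (chartG e) (kap Φ e f) (chartG (pch Φ e f)) :=
    ⟨f.open_target, hR, fun z hz => localRiem_kap he hf hz, contDiffOn_kap he hf,
      fun z' hz' v v' => by
        have h1 := chartG_block hT he hf hz' v v'
        rw [hw1, one_mul] at h1
        exact h1⟩
  have hflat := twa_strong hB hz hy (bE := b) hb hbV hbb
  -- the constant
  have hshift : ∀ z' ∈ e.target, logd bV (fun z => kap Φ e f (z, y)) z' =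
      (phT Φ f y β ∘ e.symm) z' + Real.log |(β.toMatrix bV).det| := by
    intro z' hz'
    rw [logd_change hκF β bV hz', Function.comp, phT_chart he hf hz' hy]
  rw [lap_shift _ e.open_target hshift hz, gam_shift2 _ e.open_target hshift hz] at hflat
  simp only [H755.Lap_chart hφ he hp, H755.Gam_chart hφ hφ he hp, hez]
  linarith only [hflat, hfibre, hscal]

end Vale.Agent.P210.R2.H465
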