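import Vale.Agent.P210.R2.H465.SfF
import Vale.Agent.P210.R2.H465.SfS
import Vale.Agent.P210.R2.H465.SfT
import Vale.Agent.P210.R2.H465.Dim
import Vale.Agent.P210.R2.H912.Fin

/-!
# Twisted products over surfaces
-/

open scoped Manifold ContDiff Topology Bundle ENNReal NNReal
open Set Metric Filter Bundle IsManifold MeasureTheory Manifold Asymptotics

set_option maxSynthPendingDepth 3

noncomputable section

namespace Vale.Agent.P210.R2.H465

open Vale.Agent.P210.R2.H53

/-- barycentric coordinates on a product with a compact factor: the fibres are near slices -/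
theorem exists_bary_prod {V : Type} [NormedAddCommGroup V] [NormedSpace ℝ V]
    [FiniteDimensional ℝ V] {N F M : Type} [TopologicalSpace N] [CompactSpace N] [Nonempty N]
    [TopologicalSpace F] [Nonempty F] [ChartedSpace V F] [MetricSpace M] [SigmaCompactSpace M]
    (Φ : M ≃ₜ N × F) {ε : ℝ} (hε : 0 < ε) :
    ∃ mu : F → M → ℝ, TP.Bary M F (Module.finrank ℝ V) mu ∧
      ∀ p q, (∀ v, mu v p = mu v q) → ∃ y : F, dist p (Φ.symm ((Φ p).1, y)) < ε ∧
        dist q (Φ.symm ((Φ q).1, y)) < ε := by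
  obtain ⟨x0⟩ := ‹Nonempty N›
  have hj : Continuous fun y : F => Φ.symm (x0, y) :=
    Φ.symm.continuous.comp (continuous_const.prodMk continuous_id)
  have hji : Function.Injective fun y : F => Φ.symm (x0, y) := fun y y' h =>
    congrArg Prod.snd (Φ.symm.injective h)
  have : T2Space F := T2Space.of_injective_continuous hji hj
  have hq : Continuous fun p : M => (Φ p).2 := continuous_snd.comp Φ.continuous
  have : SigmaCompactSpace F := by
    rw [← isSigmaCompact_univ_iff]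
    have h1 : (fun p : M => (Φ p).2) '' univ = univ := by
      rw [image_univ]
      refine range_eq_univ.2 fun y => ⟨Φ.symm (x0, y), ?_⟩
      simp
    rw [← h1]
    exact isSigmaCompact_univ.image hq
  set U : F → Set F := fun y => {y' | ∀ x : N, dist (Φ.symm (x, y)) (Φ.symm (x, y')) < ε} with hU
  have hUo : ∀ y, IsOpen (U y) := by
    intro y
    rw [isOpen_iff_mem_nhds]
    intro y' hy'
    have h1 : ∀ᶠ z in 𝓝 y', ∀ x ∈ (univ : Set N),
        dist (Φ.symm (x, y)) (Φ.symm (x, z)) < ε := by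
      refine isCompact_univ.eventually_forall_of_forall_eventually fun x _ => ?_
      have h2 : Continuous fun z : F × N => dist (Φ.symm (z.2, y)) (Φ.symm (z.2, z.1)) := by
        have h3 : Continuous fun z : F × N => Φ.symm (z.2, y) :=
          Φ.symm.continuous.comp (continuous_snd.prodMk continuous_const)
        have h4 : Continuous fun z : F × N => Φ.symm (z.2, z.1) :=
          Φ.symm.continuous.comp (continuous_snd.prodMk continuous_fst)
        exact h3.dist h4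
      exact h2.continuousAt.eventually_lt_const (hy' x)
    filter_upwards [h1] with z hz x using hz x (mem_univ x)
  have hUc : (⋃ y, U y) = univ := by
    refine eq_univ_of_forall fun y => mem_iUnion.2 ⟨y, fun x => ?_⟩
    rw [dist_self]
    exact hε
  obtain ⟨lam, hlam, hsup⟩ := exists_bary_sub V F hUo hUc
  refine ⟨fun v p => lam v (Φ p).2, ⟨fun v => (hlam.cont v).comp hq, fun v x => hlam.nonneg v _,
    hlam.fin.preimage_continuous hq, fun x => hlam.sum _, fun x => hlam.card _⟩, ?_⟩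
  intro p q hpq
  obtain ⟨v, hv⟩ : ∃ v, lam v (Φ p).2 ≠ 0 := by
    by_contra hcon
    push Not at hcon
    have h1 := hlam.sum (Φ p).2
    rw [finsum_eq_zero_of_forall_eq_zero hcon] at h1
    exact zero_ne_one h1
  have hv' : lam v (Φ q).2 ≠ 0 := fun h0 => hv ((hpq v).trans h0)
  have h1 := hsup v hv (Φ p).1
  have h2 := hsup v hv' (Φ q).1
  have e1 : Φ.symm ((Φ p).1, (Φ p).2) = p := Φ.symm_apply_apply p
  have e2 : Φ.symm ((Φ q).1, (Φ q).2) = q := Φ.symm_apply_apply q
  rw [e1] at h1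
  rw [e2] at h2
  exact ⟨v, by rwa [dist_comm], by rwa [dist_comm]⟩

/-- the diameter of the base surface -/
theorem surf_diam {E : Type} [NormedAddCommGroup E] [NormedSpace ℝ E] [FiniteDimensional ℝ E]
    {N : Type} [MetricSpace N] [ChartedSpace E N]
    [RiemannianBundle (fun x : N => TangentSpace 𝓘(ℝ, E) x)] [IsManifold 𝓘(ℝ, E) ∞ N]
    [IsContMDiffRiemannianBundle 𝓘(ℝ, E) ∞ E (fun x : N => TangentSpace 𝓘(ℝ, E) x)]
    [IsRiemannianManifold 𝓘(ℝ, E) N] [CompleteSpace N] [ConnectedSpace N] {θ : ℝ} (hθ1 : θ < 1)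
    {k : ℕ} (hk : 1 ≤ k) (hE : Module.finrank ℝ E = 2) {φ : N → ℝ}
    (hφ : ContMDiff 𝓘(ℝ, E) 𝓘(ℝ, ℝ) ∞ φ)
    (hS : ScalGEf E N (fun p => (1 - θ) + 2 * Lap E φ p + (1 + (k : ℝ)⁻¹) * Gam E φ φ p))
    (x x' : N) : dist x x' ≤ 2 * Real.pi * √((k + 1) / ((k + 2) * (1 - θ))) := by
  have hk0 : (0 : ℝ) < k := by exact_mod_cast hk
  have hθ0 : 0 < 1 - θ := by linarith
  have h1 : (fun p => (1 - θ) + 2 * Lap E φ p + (1 + (k : ℝ)⁻¹) * Gam E φ φ p) =
      fun p => 2 * ((1 - θ) / 2) + 2 * Lap E φ p +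
        2 * ((1 + ((k : ℝ) + 2) / k) / 4) * Gam E φ φ p := by
    funext p
    field_simp
    ring
  rw [h1] at hS
  have h2 := surf_le hE (κ := (1 - θ) / 2) (δ := ((k : ℝ) + 2) / k) (by linarith)
    (by positivity) hφ hS x x'
  have h3 : 0 ≤ 2 * Real.pi * √(((k : ℝ) + 1) / ((k + 2) * (1 - θ))) := by
    have := Real.pi_pos
    positivity
  refine (abs_le_of_sq_le_sq' ?_ h3).2
  rw [mul_pow, mul_pow, Real.sq_sqrt (by positivity)]
  have h4 : dist x x' ^ 2 ≤ (1 + 1 / (((k : ℝ) + 2) / k)) * Real.pi ^ 2 / ((1 - θ) / 2) := by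
    rw [le_div_iff₀ (by linarith)]
    linarith
  refine h4.trans (le_of_eq ?_)
  field_simp
  ring

/-- the theorem on twisted products over surfaces -/
theorem surface_base {θ : ℝ} (hθ : 0 ≤ θ) (hθ1 : θ < 1) {k : ℕ} (hk : 1 ≤ k) {C : ℝ}
    (hC : 2 * Real.pi * √((k + 1) / ((k + 2) * (1 - θ))) < C) :
    Stmt.ForT fun E _ _ _ V _ _ _ N _ _ _ _ _ _ F _ _ _ M _ _ _ _ _ _ w Φ =>
    (∀ x, w x = 1) → Module.finrank ℝ E = 2 → Module.finrank ℝ V = k → CompleteSpace M →
    ScalGE (E × V) M 1 →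
    (k ≤ 1 ∨ ∃ y : F, ∀ x : N,
      ScalLEAt (fibreMetric Φ x (chartAt V y)) (chartAt V y y) θ) →
    H53.UrysohnWidthLE M k C := by
  classical
  intro E _ _ _ V _ _ _ N _ _ _ _ _ _ F _ _ _ M _ _ _ _ _ _ w Φ hw hw0 hΦ hw1 hdE hdV hcM hScal
    hfib
  subst hdV
  rcases isEmpty_or_nonempty M with hM | hM
  · exact H912.urysohn_of_isEmpty _ _
  obtain ⟨p₀⟩ := hM
  have : Nonempty F := ⟨(Φ p₀).2⟩
  have : Nonempty N := ⟨(Φ p₀).1⟩
  have hsq : ∀ x, w x ≤ 1 ^ 2 := fun x => by rw [hw1]; norm_num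
  obtain ⟨hsl1, hsl2⟩ := H265.slice E V N F M w Φ hw hw0 hΦ
  have : CompleteSpace N := hsl2 1 zero_le_one hsq hcM inferInstance
  have : ConnectedSpace N := by
    have : PathConnectedSpace N :=
      ⟨⟨(Φ p₀).1⟩, fun x y => H973.pathConnected_of_riemannian (E := E) x y⟩
    infer_instance
  have : ProperSpace N := properSpace_riemannian E N
  have : ProperSpace M := properSpace_riemannian (E × V) M
  -- the point of `F`
  obtain ⟨y, hy⟩ : ∃ y : F, (Module.finrank ℝ V ≤ 1 ∨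
      ∀ x : N, ScalLEAt (fibreMetric Φ x (chartAt V y)) (chartAt V y y) θ) := by
    rcases hfib with h | ⟨y, hy⟩
    · exact ⟨(Φ p₀).2, Or.inl h⟩
    · exact ⟨y, Or.inr hy⟩
  obtain ⟨φ, hφ, hSc⟩ := twist_s hθ E V N F M w Φ hw hw0 hΦ hw1 hScal y hy
  have hsmall := surf_diam hθ1 hk hdE hφ hSc
  set D := 2 * Real.pi * √(((Module.finrank ℝ V : ℝ) + 1) /
    (((Module.finrank ℝ V : ℝ) + 2) * (1 - θ))) with hD
  have : CompactSpace N := by
    refine ⟨?_⟩
    have h2 : (univ : Set N) = closedBall (Φ p₀).1 D :=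
      (eq_univ_of_forall fun x => hsmall x _).symm
    rw [h2]
    exact isCompact_closedBall _ _
  obtain ⟨mu, hmu, hmu'⟩ := exists_bary_prod (V := V) Φ.toHomeomorph (ε := (C - D) / 2)
    (by linarith)
  refine H912.urysohn_of_bary ⟨_, mu, hmu, fun p q hpq => ?_⟩
  obtain ⟨v, h3, h4⟩ := hmu' p q hpq
  have h5 := hsl1 1 zero_le_one hsq (Φ p).1 (Φ q).1 v
  have h6 := hsmall (Φ p).1 (Φ q).1
  have h7 : dist p (Φ.symm ((Φ p).1, v)) < (C - D) / 2 := h3
  have h8 : dist q (Φ.symm ((Φ q).1, v)) < (C - D) / 2 := h4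
  have h9 := dist_triangle p (Φ.symm ((Φ p).1, v)) q
  have h10 := dist_triangle (Φ.symm ((Φ p).1, v)) (Φ.symm ((Φ q).1, v)) q
  rw [dist_comm q] at h8
  linarith

end Vale.Agent.P210.R2.H465
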