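import Mathlib.MeasureTheory.Integral.Bochner.Basic
import Mathlib.MeasureTheory.Integral.Bochner.Set
import Mathlib.MeasureTheory.Constructions.BorelSpace.Metrizable
import Mathlib.Topology.Compactness.Compact
import Mathlib.MeasureTheory.Integral.DominatedConvergence

/-!
# Means of continuous functions are finite averages up to `ε`, uniformly on compact sets
-/

open Set Filter MeasureTheory Topology

noncomputable section

namespace Vale.Agent.P210.R2.H465

theorem mean_finite {N F : Type} [TopologicalSpace N] [TopologicalSpace F] [MeasurableSpace F]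
    [BorelSpace F] {μ : Measure F} [IsProbabilityMeasure μ] {L : Set F} (hL : IsCompact L)
    (hμ : μ Lᶜ = 0) {S : N × F → ℝ} (hS : Continuous S) {θ : ℝ}
    (hm : ∀ x, ∫ y, S (x, y) ∂μ ≤ θ) {K : Set N} (hK : IsCompact K) {ε : ℝ} (hε : 0 < ε) :
    ∃ (r : ℕ) (p : Fin r → ℝ) (y : Fin r → F), (∀ j, 0 ≤ p j) ∧ ∑ j, p j = 1 ∧
      ∀ x ∈ K, ∑ j, p j * S (x, y j) ≤ θ + ε := by
  classical
  have hU : ∀ y0 : F, ∃ O : Set F, IsOpen O ∧ y0 ∈ O ∧
      ∀ y ∈ O, ∀ x ∈ K, |S (x, y) - S (x, y0)| < ε := by
    intro y0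
    have h1 : ∀ᶠ y in 𝓝 y0, ∀ x ∈ K, |S (x, y) - S (x, y0)| < ε := by
      refine hK.eventually_forall_of_forall_eventually fun x hx => ?_
      have h2 : Continuous fun z : F × N => |S (z.2, z.1) - S (z.2, y0)| := by fun_prop
      exact h2.continuousAt.eventually_lt_const (by simpa using hε)
    obtain ⟨O, hO, hO1, hO2⟩ := eventually_nhds_iff.1 h1
    exact ⟨O, hO1, hO2, hO⟩
  choose O hO1 hO2 hO3 using hU
  obtain ⟨t, -, hcov⟩ := hL.elim_nhds_subcover O (fun y _ => (hO1 y).mem_nhds (hO2 y))
  have hae : ∀ᵐ z ∂μ, z ∈ L := hμ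
  obtain ⟨y00, -⟩ := hae.exists
  set r := t.card with hr
  let y : ℕ → F := fun n => if h : n < r then (t.equivFin.symm ⟨n, h⟩ : F) else y00
  let P : F → ℕ → Prop := fun z n => z ∈ O (y n) ∨ n = r
  have hP : ∀ z, ∃ n, P z n := fun z => ⟨r, Or.inr rfl⟩
  have hPm : ∀ n, MeasurableSet {z | P z n} := fun n =>
    ((hO1 (y n)).measurableSet).union (MeasurableSet.const _)
  let τ : F → ℕ := fun z => Nat.find (hP z)
  have hτ : Measurable τ := measurable_find hP hPm
  have hτr : ∀ z, τ z ≤ r := fun z => Nat.find_min' (hP z) (Or.inr rfl)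
  have hτL : ∀ z ∈ L, z ∈ O (y (τ z)) := by
    intro z hz
    obtain ⟨v, hv, hzv⟩ := mem_iUnion₂.1 (hcov hz)
    have hyn : y (t.equivFin ⟨v, hv⟩ : Fin t.card) = v := by
      have h1 : ((t.equivFin ⟨v, hv⟩ : Fin t.card) : ℕ) < r := (t.equivFin ⟨v, hv⟩).2
      simp only [y, h1, dif_pos, Fin.eta, Equiv.symm_apply_apply]
    have h1 : τ z ≤ (t.equivFin ⟨v, hv⟩ : Fin t.card) :=
      Nat.find_min' (hP z) (Or.inl (by rw [hyn]; exact hzv))
    rcases Nat.find_spec (hP z) with h | h
    · exact h
    · exfalso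
      have h2 : τ z = r := h
      have h3 : ((t.equivFin ⟨v, hv⟩ : Fin t.card) : ℕ) < r := (t.equivFin ⟨v, hv⟩).2
      omega
  let τ' : F → Fin (r + 1) := fun z => ⟨τ z, Nat.lt_succ_of_le (hτr z)⟩
  have hτ' : Measurable τ' := measurable_to_countable' fun j => by
    have h1 : τ' ⁻¹' {j} = τ ⁻¹' {(j : ℕ)} := by
      ext z
      simp [τ', Fin.ext_iff]
    rw [h1]
    exact hτ (measurableSet_singleton _)
  have : IsProbabilityMeasure (μ.map τ') := Measure.isProbabilityMeasure_map hτ'.aemeasurable
  refine ⟨r + 1, fun j => (μ.map τ').real {j}, fun j => y j, fun j => measureReal_nonneg, ?_, ?_⟩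
  · have h1 := integral_fintype (μ := μ.map τ') (f := fun _ => (1 : ℝ)) (integrable_const _)
    simpa using h1.symm
  · intro x hx
    have h1 := integral_fintype (μ := μ.map τ') (f := fun j : Fin (r + 1) => S (x, y j))
      Integrable.of_finite
    rw [integral_map hτ'.aemeasurable (measurable_of_finite _).aestronglyMeasurable] at h1
    simp only [smul_eq_mul] at h1
    rw [← h1]
    have hc : Continuous fun z => S (x, z) := by fun_prop
    have hint : Integrable (fun z => S (x, z)) μ := by
      obtain ⟨C, hC⟩ := hL.exists_bound_of_continuousOn hc.continuousOn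
      refine Integrable.of_bound hc.aestronglyMeasurable C ?_
      filter_upwards [hae] with z hz using hC z hz
    have hint2 : Integrable (fun z => S (x, y (τ' z))) μ := by
      have h3 : Integrable (fun j : Fin (r + 1) => S (x, y j)) (μ.map τ') := Integrable.of_finite
      exact h3.comp_measurable hτ'
    calc ∫ z, S (x, y (τ' z)) ∂μ ≤ ∫ z, (S (x, z) + ε) ∂μ := by
          refine integral_mono_ae hint2 (hint.add (integrable_const _)) ?_
          filter_upwards [hae] with z hz
          have h3 := hO3 _ z (hτL z hz) x hx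
          have h4 := (abs_lt.1 h3).1
          change S (x, y (τ z)) ≤ S (x, z) + ε
          linarith
      _ = ∫ z, S (x, z) ∂μ + ε := by
          rw [integral_add hint (integrable_const _)]
          simp
      _ ≤ θ + ε := by linarith [hm x]

end Vale.Agent.P210.R2.H465
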