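import Vale.Agent.P210.R2.H465.SfS

/-!
# Averages of the logarithmic densities of the fibres
-/

open scoped Manifold ContDiff Topology Bundle ENNReal NNReal
open Set Metric Filter Bundle IsManifold MeasureTheory Manifold Asymptotics

set_option maxSynthPendingDepth 3
set_option linter.all false

noncomputable section

namespace Vale.Agent.P210.R2.H465

open Vale.Agent.P210.R2.H53 Vale.Agent.P210.R2.H973 Vale.Agent.P210.R2.H265

section flat

variable {E : Type} [NormedAddCommGroup E] [NormedSpace ℝ E]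
  {G : E → E →L[ℝ] E →L[ℝ] ℝ} {U : Set E} {z : E} {f g : E → ℝ} {a b : ℝ}

theorem fd_comb (hU : IsOpen U) (hf : ContDiffOn ℝ ∞ f U) (hg : ContDiffOn ℝ ∞ g U) (hz : z ∈ U) :
    fderiv ℝ (fun y => a * f y + b * g y) z = a • fderiv ℝ f z + b • fderiv ℝ g z := by
  have h1 : HasFDerivAt f (fderiv ℝ f z) z :=
    ((hf.contDiffAt (hU.mem_nhds hz)).differentiableAt (by simp)).hasFDerivAt
  have h2 : HasFDerivAt g (fderiv ℝ g z) z :=
    ((hg.contDiffAt (hU.mem_nhds hz)).differentiableAt (by simp)).hasFDerivAt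
  exact ((h1.const_mul a).add (h2.const_mul b)).fderiv

theorem fd2_comb (hU : IsOpen U) (hf : ContDiffOn ℝ ∞ f U) (hg : ContDiffOn ℝ ∞ g U)
    (hz : z ∈ U) :
    fderiv ℝ (fderiv ℝ (fun y => a * f y + b * g y)) z =
      a • fderiv ℝ (fderiv ℝ f) z + b • fderiv ℝ (fderiv ℝ g) z := by
  have h0 : fderiv ℝ (fun y => a * f y + b * g y) =ᶠ[𝓝 z]
      fun y => a • fderiv ℝ f y + b • fderiv ℝ g y := by
    filter_upwards [hU.mem_nhds hz] with y hy using fd_comb hU hf hg hy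
  rw [h0.fderiv_eq]
  have k1 : ContDiffOn ℝ ∞ (fderiv ℝ f) U := hf.fderiv_of_isOpen hU (by simp)
  have k2 : ContDiffOn ℝ ∞ (fderiv ℝ g) U := hg.fderiv_of_isOpen hU (by simp)
  have h1 : HasFDerivAt (fderiv ℝ f) (fderiv ℝ (fderiv ℝ f) z) z :=
    ((k1.contDiffAt (hU.mem_nhds hz)).differentiableAt (by simp)).hasFDerivAt
  have h2 : HasFDerivAt (fderiv ℝ g) (fderiv ℝ (fderiv ℝ g) z) z :=
    ((k2.contDiffAt (hU.mem_nhds hz)).differentiableAt (by simp)).hasFDerivAt
  exact ((h1.const_smul a).add (h2.const_smul b)).fderiv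

theorem grad_comb (hU : IsOpen U) (hf : ContDiffOn ℝ ∞ f U) (hg : ContDiffOn ℝ ∞ g U)
    (hz : z ∈ U) :
    gradG G (fun y => a * f y + b * g y) z = a • gradG G f z + b • gradG G g z := by
  simp only [gradG, fd_comb hU hf hg hz, map_add, map_smul]

theorem lap_comb (hU : IsOpen U) (hf : ContDiffOn ℝ ∞ f U) (hg : ContDiffOn ℝ ∞ g U)
    (hz : z ∈ U) :
    lapG G (fun y => a * f y + b * g y) z = a * lapG G f z + b * lapG G g z := by
  have h1 : hessG G (fun y => a * f y + b * g y) z = a • hessG G f z + b • hessG G g z := by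
    ext v w
    simp only [H755.hessG_apply, fd_comb hU hf hg hz, fd2_comb hU hf hg hz, add_apply, smul_apply,
      smul_eq_mul]
    ring
  have h2 : (opG G (fun y => a * f y + b * g y) z : E →ₗ[ℝ] E) =
      a • (opG G f z : E →ₗ[ℝ] E) + b • (opG G g z : E →ₗ[ℝ] E) := by
    ext v
    simp only [ContinuousLinearMap.coe_coe, LinearMap.add_apply, LinearMap.smul_apply,
      H755.opG_apply, h1, add_apply, smul_apply, map_add, map_smul]
  rw [lapG, h2, map_add, map_smul, map_smul]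
  rfl

theorem gam_comb [FiniteDimensional ℝ E] (h : LocalRiem G U) (hf : ContDiffOn ℝ ∞ f U)
    (hg : ContDiffOn ℝ ∞ g U) (hz : z ∈ U) (ha : 0 ≤ a) (hb : 0 ≤ b) (hab : a + b = 1) :
    gamG G (fun y => a * f y + b * g y) (fun y => a * f y + b * g y) z ≤
      a * gamG G f f z + b * gamG G g g z := by
  rw [H755.gamG_eq h hz, H755.gamG_eq h hz, H755.gamG_eq h hz, grad_comb h.isOpen hf hg hz]
  set u := gradG G f z
  set v := gradG G g z
  have h1 : 0 ≤ G z (u - v) (u - v) := by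
    rcases eq_or_ne (u - v) 0 with h0 | h0
    · rw [h0]; simp
    · exact (h.pos z hz _ h0).le
  have h2 := h.symm z hz v u
  simp only [map_add, map_sub, map_smul, add_apply, sub_apply, smul_apply, smul_eq_mul] at h1 ⊢
  rw [h2] at h1 ⊢
  have h3 : b = 1 - a := by linarith
  have h4 : 0 ≤ a * b * (G z u u - G z u v - (G z u v - G z v v)) :=
    mul_nonneg (mul_nonneg ha hb) h1
  rw [h3] at h4 ⊢
  nlinarith [h4]

end flat

section conv

variable {E : Type} [NormedAddCommGroup E] [NormedSpace ℝ E] [FiniteDimensional ℝ E]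
  {N : Type} [MetricSpace N] [ChartedSpace E N]
  [RiemannianBundle (fun x : N => TangentSpace 𝓘(ℝ, E) x)]
  [IsManifold 𝓘(ℝ, E) ∞ N]
  [IsContMDiffRiemannianBundle 𝓘(ℝ, E) ∞ E (fun x : N => TangentSpace 𝓘(ℝ, E) x)]

variable (E N) in
/-- functions with the curvature inequality -/
def CS (c : ℝ) : Set ((N → ℝ) × (N → ℝ)) :=
  {q | ContMDiff 𝓘(ℝ, E) 𝓘(ℝ, ℝ) ∞ q.1 ∧
    ScalGEf E N (fun p => q.2 p + 2 * Lap E q.1 p + c * Gam E q.1 q.1 p)}

theorem convex_CS {c : ℝ} (hc : 0 ≤ c) : Convex ℝ (CS E N c) := by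
  rintro ⟨φ, σ⟩ ⟨h1, h2⟩ ⟨φ', σ'⟩ ⟨h1', h2'⟩ a b ha hb hab
  have e1 : (a • ((φ, σ) : (N → ℝ) × (N → ℝ)) + b • ((φ', σ') : (N → ℝ) × (N → ℝ))) =
      (fun p => a * φ p + b * φ' p, fun p => a * σ p + b * σ' p) := rfl
  rw [e1]
  refine ⟨?_, ?_⟩
  · have h3 : ContMDiff 𝓘(ℝ, E) 𝓘(ℝ, ℝ) ∞ (fun _ : N => a) := contMDiff_const
    have h4 : ContMDiff 𝓘(ℝ, E) 𝓘(ℝ, ℝ) ∞ (fun _ : N => b) := contMDiff_const
    exact (h3.mul h1).add (h4.mul h1')
  · intro e he z hz
    obtain ⟨Γ, hΓ, h3⟩ := h2 e he z hz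
    obtain ⟨Γ', hΓ', h4⟩ := h2' e he z hz
    refine ⟨Γ, hΓ, fun bs hbs => ?_⟩
    have h5 := h3 bs hbs
    have h6 := h4 bs hbs
    simp only [sectNum_eq he hz hΓ] at h5 ⊢
    simp only [sectNum_eq he hz hΓ'] at h6
    set S := ∑ i, ∑ j, secG (chartG e) z (bs i) (bs j)
    set p := e.symm z
    have he' := H755.mem_chartAt_atlas (E := E) p
    have hR : LocalRiem (chartG (chartAt E p)) (chartAt E p).target :=
      ⟨(chartAt E p).open_target, contDiffOn_chartG he',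
        fun z _ v w => chartG_symm _ z v w, fun z hz v hv => chartG_pos he' hz v hv⟩
    have hp := mem_chart_target E p
    have hf := H755.contDiffOn_chart (H755.mem_chartAt_atlas (E := E) p) h1
    have hg := H755.contDiffOn_chart (H755.mem_chartAt_atlas (E := E) p) h1'
    have h7 : Lap E (fun q => a * φ q + b * φ' q) p = a * Lap E φ p + b * Lap E φ' p :=
      lap_comb hR.isOpen hf hg hp
    have h8 : Gam E (fun q => a * φ q + b * φ' q) (fun q => a * φ q + b * φ' q) p ≤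
        a * Gam E φ φ p + b * Gam E φ' φ' p := gam_comb hR hf hg hp ha hb hab
    have h9 := mul_le_mul_of_nonneg_left h8 hc
    have h10 := mul_le_mul_of_nonneg_left h5 ha
    have h11 := mul_le_mul_of_nonneg_left h6 hb
    have h12 : a * S + b * S = S := by rw [← add_mul, hab, one_mul]
    change a * σ p + b * σ' p + 2 * Lap E (fun q => a * φ q + b * φ' q) p +
      c * Gam E (fun q => a * φ q + b * φ' q) (fun q => a * φ q + b * φ' q) p ≤ S
    rw [h7, ← h12]
    linarith only [h9, h10, h11]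

end conv

section Tw

variable {E : Type} [NormedAddCommGroup E] [NormedSpace ℝ E]
  {V : Type} [NormedAddCommGroup V] [NormedSpace ℝ V] [FiniteDimensional ℝ V]
  {N : Type} [MetricSpace N] [ChartedSpace E N]
  {F : Type} [TopologicalSpace F] [ChartedSpace V F]
  {M : Type} [MetricSpace M] [ChartedSpace (E × V) M]
  [RiemannianBundle (fun x : M => TangentSpace 𝓘(ℝ, E × V) x)]

/-- the square of the density of the fibre over `x` at `y` -/
def fdet (Φ : Diffeomorph 𝓘(ℝ, E × V) (𝓘(ℝ, E).prod 𝓘(ℝ, V)) M (N × F) ∞) (x : N) (y : F) : ℝ :=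
  Matrix.det (Matrix.of fun i j => fibreMetric Φ x (chartAt V y) (chartAt V y y)
    (Module.finBasis ℝ V i) (Module.finBasis ℝ V j))

/-- on `Y` the densities of the fibres are proportional -/
def PropD (Φ : Diffeomorph 𝓘(ℝ, E × V) (𝓘(ℝ, E).prod 𝓘(ℝ, V)) M (N × F) ∞) (Y : Set F) : Prop :=
  ∀ y ∈ Y, ∀ y' ∈ Y, ∀ x x' : N, fdet Φ x y * fdet Φ x' y' = fdet Φ x' y * fdet Φ x y'

end Tw

/-- the scalar curvature of twisted products, for a set of points with proportional densities -/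
theorem twist_var :
    Stmt.ForT fun E _ _ _ V _ _ _ N _ _ _ _ _ _ F _ _ _ M _ _ _ _ _ _ w Φ =>
    (∀ x, w x = 1) → ScalGE (E × V) M 1 → ∀ (Y : Set F) (y0 : F), y0 ∈ Y → PropD Φ Y →
    ∀ s : N → ℝ, (∀ x : N, ∃ y ∈ Y,
      ScalLEAt (fibreMetric Φ x (chartAt V y)) (chartAt V y y) (s x)) →
    ∃ φ : N → ℝ, (φ, fun p => 1 - s p) ∈ CS E N (1 + (Module.finrank ℝ V : ℝ)⁻¹) := by
  intro E _ _ _ V _ _ _ N _ _ _ _ _ _ F _ _ _ M _ _ _ _ _ _ w Φ hw hw0 hT hw1 hS Y y0 hy0 hY s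
    hs
  set β := Module.finBasis ℝ V with hβ
  have hpos : ∀ (x : N) (y : F), 0 < fdet Φ x y := by
    intro x y
    have he := chart_mem_maximalAtlas (I := 𝓘(ℝ, E)) (n := ∞) x
    have hf := chart_mem_maximalAtlas (I := 𝓘(ℝ, V)) (n := ∞) y
    have hz := mem_chart_target E x
    have hy := mem_chart_target V y
    have hκ := localRiem_kap (Φ := Φ) he hf hz
    have h1 := det_gramc_pos β (hκ.symm _ hy) (hκ.pos _ hy)
    have h2 : fdet Φ x y = (gramc β (kap Φ (chartAt E x) (chartAt V y)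
        (chartAt E x x, chartAt V y y))).det := by
      rw [fdet, gramc]
      congr 2
      ext i j
      have h3 := fibreMetric_eq (Φ := Φ) he hf hz hy (β i) (β j)
      rw [(chartAt E x).left_inv (mem_chart_source E x)] at h3
      exact h3
    rw [h2]
    exact h1
  have hph : ∀ (x : N) (y : F), phT Φ (chartAt V y) (chartAt V y y) β x =
      1 / 2 * Real.log (fdet Φ x y) := fun _ _ => rfl
  have hφ : ContMDiff 𝓘(ℝ, E) 𝓘(ℝ, ℝ) ∞ (phT Φ (chartAt V y0) (chartAt V y0 y0) β) :=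
    contMDiff_phT (chart_mem_maximalAtlas y0) (mem_chart_target V y0)
  refine ⟨phT Φ (chartAt V y0) (chartAt V y0 y0) β, hφ, ?_⟩
  intro e he z hz
  have hΓ := isChristoffel_chris he hz
  refine ⟨fun u v => chris (chartG e) z u v, hΓ, fun b hb => ?_⟩
  simp only [sectNum_eq he hz hΓ]
  obtain ⟨y1, hy1, hsc⟩ := hs (e.symm z)
  set f : OpenPartialHomeomorph F V := chartAt V y1 with hfd
  have hf : f ∈ maximalAtlas 𝓘(ℝ, V) ∞ F := chart_mem_maximalAtlas y1
  set y : V := chartAt V y1 y1 with hyd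
  have hy : y ∈ f.target := mem_chart_target V y1
  have hR : LocalRiem (chartG e) e.target := ⟨e.open_target, contDiffOn_chartG he,
    fun z _ v w => chartG_symm e z v w, fun z hz v hv => chartG_pos he hz v hv⟩
  have hzy : ((z, y) : E × V) ∈ e.target ×ˢ f.target := ⟨hz, hy⟩
  have hp : e.symm z ∈ e.source := e.map_target hz
  have hez : e (e.symm z) = z := e.right_inv hz
  -- bases
  have hκ := localRiem_kap (Φ := Φ) he hf hz
  have hκF := locFam_kap (Φ := Φ) he hf hy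
  have hpc := pch_mem (Φ := Φ) he hf
  have hzy' : ((z, y) : E × V) ∈ (pch Φ e f).target := by rw [pch_target]; exact hzy
  obtain ⟨bV, hbV⟩ := exists_onb (kap Φ e f (z, y)) (hκ.symm y hy) (hκ.pos y hy)
  obtain ⟨bb, hbb⟩ := exists_onb (chartG (pch Φ e f) (z, y)) (fun v v' => cgs _ _ _ _)
    (fun v hv => chartG_pos hpc hzy' v hv)
  -- the curvature of the fibre
  have hfibre : ∑ i, ∑ j, secG (fun v => kap Φ e f (z, v)) y (bV i) (bV j) ≤ s (e.symm z) :=
    scalLE_of hκ (fun y' hy' v v' => fibreMetric_eq he hf hz hy' v v') hy hsc hbV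
  -- the scalar curvature of the product
  have hscal : 1 ≤ ∑ i, ∑ j, secG (chartG (pch Φ e f)) (z, y) (bb i) (bb j) := by
    obtain ⟨Γ', hΓ', h1⟩ := hS (pch Φ e f) hpc (z, y) hzy'
    refine (h1 bb hbb).trans (le_of_eq ?_)
    exact Finset.sum_congr rfl fun i _ => Finset.sum_congr rfl fun j _ =>
      sectNum_eq hpc hzy' hΓ' _ _
  -- the flat inequality
  have hB : Blk e.target f.target (chartG e) (kap Φ e f) (chartG (pch Φ e f)) :=
    ⟨f.open_target, hR, fun z hz => localRiem_kap he hf hz, contDiffOn_kap he hf,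
      fun z' hz' v v' => by
        have h1 := chartG_block hT he hf hz' v v'
        rw [hw1, one_mul] at h1
        exact h1⟩
  have hflat := twa_strong hB hz hy (bE := b) hb hbV hbb
  -- the constants
  have hcst : ∀ x : N, phT Φ f y β x = phT Φ (chartAt V y0) (chartAt V y0 y0) β x +
      (1 / 2 * Real.log (fdet Φ (e.symm z) y1) - 1 / 2 * Real.log (fdet Φ (e.symm z) y0)) := by
    intro x
    have h1 := congrArg Real.log (hY y1 hy1 y0 hy0 x (e.symm z))
    rw [Real.log_mul (hpos _ _).ne' (hpos _ _).ne', Real.log_mul (hpos _ _).ne' (hpos _ _).ne']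
      at h1
    rw [hfd, hyd, hph, hph]
    linarith only [h1]
  have hshift : ∀ z' ∈ e.target, logd bV (fun z => kap Φ e f (z, y)) z' =
      (phT Φ (chartAt V y0) (chartAt V y0 y0) β ∘ e.symm) z' +
      ((1 / 2 * Real.log (fdet Φ (e.symm z) y1) - 1 / 2 * Real.log (fdet Φ (e.symm z) y0)) +
        Real.log |(β.toMatrix bV).det|) := by
    intro z' hz'
    rw [logd_change hκF β bV hz', Function.comp, ← phT_chart he hf hz' hy, hcst]
    ring
  rw [lap_shift _ e.open_target hshift hz, gam_shift2 _ e.open_target hshift hz] at hflat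
  change 1 - s (e.symm z) + 2 * Lap E _ (e.symm z) + _ * Gam E _ _ (e.symm z) ≤ _
  simp only [H755.Lap_chart hφ he hp, H755.Gam_chart hφ hφ he hp, hez]
  linarith only [hflat, hfibre, hscal]

/-- averages -/
theorem twist_avg {θ : ℝ} :
    Stmt.ForT fun E _ _ _ V _ _ _ N _ _ _ _ _ _ F _ _ _ M _ _ _ _ _ _ w Φ =>
    (∀ x, w x = 1) → ScalGE (E × V) M 1 → ∀ (r : ℕ) (p : Fin r → ℝ) (Y : Fin r → Set F),
    (∀ j, 0 ≤ p j) → ∑ j, p j = 1 → (∀ j, PropD Φ (Y j)) →
    (∀ x : N, ∃ (y : Fin r → F) (s : Fin r → ℝ), (∀ j, y j ∈ Y j ∧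
      ScalLEAt (fibreMetric Φ x (chartAt V (y j))) (chartAt V (y j) (y j)) (s j)) ∧
      ∑ j, p j * s j ≤ θ) → Nonempty N →
    ∃ φ : N → ℝ, ContMDiff 𝓘(ℝ, E) 𝓘(ℝ, ℝ) ∞ φ ∧
      ScalGEf E N (fun p => (1 - θ) + 2 * Lap E φ p +
        (1 + (Module.finrank ℝ V : ℝ)⁻¹) * Gam E φ φ p) := by
  intro E _ _ _ V _ _ _ N _ _ _ _ _ _ F _ _ _ M _ _ _ _ _ _ w Φ hw hw0 hT hw1 hS r p Y hp hp1 hY
    hs ⟨x0⟩
  choose y s hys hsum using hs
  have h1 : ∀ j, ∃ φ : N → ℝ, (φ, fun x => 1 - s x j) ∈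
      CS E N (1 + (Module.finrank ℝ V : ℝ)⁻¹) := fun j =>
    twist_var E V N F M w Φ hw hw0 hT hw1 hS (Y j) (y x0 j) (hys x0 j).1 (hY j)
      (fun x => s x j) (fun x => ⟨y x j, (hys x j).1, (hys x j).2⟩)
  choose φ hφ using h1
  have h2 := (convex_CS (E := E) (N := N) (c := 1 + (Module.finrank ℝ V : ℝ)⁻¹)
    (by positivity)).sum_mem (t := Finset.univ) (w := p) (z := fun j => (φ j, fun x => 1 - s x j))
    (fun j _ => hp j) hp1 (fun j _ => hφ j)
  obtain ⟨h3, h4⟩ := h2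
  refine ⟨_, h3, ?_⟩
  intro e he z hz
  obtain ⟨Γ, hΓ, h5⟩ := h4 e he z hz
  refine ⟨Γ, hΓ, fun b hb => le_trans ?_ (h5 b hb)⟩
  have h6 : (∑ j, p j • ((φ j, fun x => 1 - s x j) : (N → ℝ) × (N → ℝ))).2 (e.symm z) =
      1 - ∑ j, p j * s (e.symm z) j := by
    rw [Prod.snd_sum, Finset.sum_apply]
    simp only [Prod.smul_snd, Pi.smul_apply, smul_eq_mul, mul_sub, mul_one,
      Finset.sum_sub_distrib, hp1]
  have h7 := hsum (e.symm z)
  dsimp only
  rw [h6]
  linarith only [h7]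

end Vale.Agent.P210.R2.H465
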