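import Vale.Agent.P210.R2.H465.SfG
import Vale.Agent.P210.R2.H465.SfU

/-!
# Twisted products over surfaces, second form
-/

open scoped Manifold ContDiff Topology Bundle ENNReal NNReal
open Set Metric Filter Bundle IsManifold MeasureTheory Manifold Asymptotics

set_option maxSynthPendingDepth 3

noncomputable section

namespace Vale.Agent.P210.R2.H465

open Vale.Agent.P210.R2.H53

/-- the theorem on twisted products over surfaces -/
theorem surface_base2 {θ : ℝ} (hθ : 0 ≤ θ) (hθ1 : θ < 1) {k : ℕ} (hk : 1 ≤ k) {C : ℝ}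
    (hC : 2 * Real.pi * √((k + 1) / ((k + 2) * (1 - θ))) < C) :
    Stmt.ForT fun E _ _ _ V _ _ _ N _ _ _ _ _ _ F _ _ _ M _ _ _ _ _ _ w Φ =>
    (∀ x, w x = 1) → Module.finrank ℝ E = 2 → Module.finrank ℝ V = k → CompleteSpace M →
    ScalGE (E × V) M 1 →
    (k ≤ 1 ∨ ∃ (r : ℕ) (p : Fin r → ℝ) (Y : Fin r → Set F), (∀ j, 0 ≤ p j) ∧ ∑ j, p j = 1 ∧
      (∀ j, PropD Φ (Y j)) ∧ ∀ x : N, ∃ (y : Fin r → F) (s : Fin r → ℝ), (∀ j, y j ∈ Y j ∧
        ScalLEAt (fibreMetric Φ x (chartAt V (y j))) (chartAt V (y j) (y j)) (s j)) ∧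
        ∑ j, p j * s j ≤ θ) →
    H53.UrysohnWidthLE M k C := by
  classical
  intro E _ _ _ V _ _ _ N _ _ _ _ _ _ F _ _ _ M _ _ _ _ _ _ w Φ hw hw0 hΦ hw1 hdE hdV hcM hScal
    hfib
  subst hdV
  rcases isEmpty_or_nonempty M with hM | hM
  · exact H912.urysohn_of_isEmpty _ _
  obtain ⟨p₀⟩ := hM
  have : Nonempty F := ⟨(Φ p₀).2⟩
  have : Nonempty N := ⟨(Φ p₀).1⟩
  have hsq : ∀ x, w x ≤ 1 ^ 2 := fun x => by rw [hw1]; norm_num
  obtain ⟨hsl1, hsl2⟩ := H265.slice E V N F M w Φ hw hw0 hΦ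
  have : CompleteSpace N := hsl2 1 zero_le_one hsq hcM inferInstance
  have : ConnectedSpace N := by
    have : PathConnectedSpace N :=
      ⟨⟨(Φ p₀).1⟩, fun x y => H973.pathConnected_of_riemannian (E := E) x y⟩
    infer_instance
  have : ProperSpace N := properSpace_riemannian E N
  have : ProperSpace M := properSpace_riemannian (E × V) M
  obtain ⟨φ, hφ, hSc⟩ : ∃ φ : N → ℝ, ContMDiff 𝓘(ℝ, E) 𝓘(ℝ, ℝ) ∞ φ ∧
      ScalGEf E N (fun p => (1 - θ) + 2 * Lap E φ p +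
        (1 + (Module.finrank ℝ V : ℝ)⁻¹) * Gam E φ φ p) := by
    rcases hfib with h | ⟨r, p, Y, hp, hp1, hY, hs⟩
    · exact twist_s hθ E V N F M w Φ hw hw0 hΦ hw1 hScal (Φ p₀).2 (Or.inl h)
    · exact twist_avg E V N F M w Φ hw hw0 hΦ hw1 hScal r p Y hp hp1 hY hs inferInstance
  have hsmall := surf_diam hθ1 hk hdE hφ hSc
  set D := 2 * Real.pi * √(((Module.finrank ℝ V : ℝ) + 1) /
    (((Module.finrank ℝ V : ℝ) + 2) * (1 - θ))) with hD
  have : CompactSpace N := by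
    refine ⟨?_⟩
    have h2 : (univ : Set N) = closedBall (Φ p₀).1 D :=
      (eq_univ_of_forall fun x => hsmall x _).symm
    rw [h2]
    exact isCompact_closedBall _ _
  obtain ⟨mu, hmu, hmu'⟩ := exists_bary_prod (V := V) Φ.toHomeomorph (ε := (C - D) / 2)
    (by linarith)
  refine H912.urysohn_of_bary ⟨_, mu, hmu, fun p q hpq => ?_⟩
  obtain ⟨v, h3, h4⟩ := hmu' p q hpq
  have h5 := hsl1 1 zero_le_one hsq (Φ p).1 (Φ q).1 v
  have h6 := hsmall (Φ p).1 (Φ q).1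
  have h7 : dist p (Φ.symm ((Φ p).1, v)) < (C - D) / 2 := h3
  have h8 : dist q (Φ.symm ((Φ q).1, v)) < (C - D) / 2 := h4
  have h9 := dist_triangle p (Φ.symm ((Φ p).1, v)) q
  have h10 := dist_triangle (Φ.symm ((Φ p).1, v)) (Φ.symm ((Φ q).1, v)) q
  rw [dist_comm q] at h8
  linarith

end Vale.Agent.P210.R2.H465
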