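import Vale.Agent.P210.R2.H465.SfV
import Vale.Agent.P210.R2.H465.SbDefs

/-!
# Quotients of twisted products over surfaces
-/

open scoped Manifold ContDiff Topology Bundle ENNReal NNReal
open Set Metric Filter Bundle IsManifold MeasureTheory Manifold Asymptotics

set_option maxSynthPendingDepth 3

noncomputable section

namespace Vale.Agent.P210.R2.H465

open Vale.Agent.P210.R2.H53

/-- the width of a quotient of a product with a compact factor -/
theorem width_quot {N F M Q B : Type} [TopologicalSpace N] [CompactSpace N]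
    [TopologicalSpace F] [MetricSpace M] [MetricSpace Q]
    [TopologicalSpace B] [T2Space B] [ParacompactSpace B] (Ψ : N × F ≃ₜ M) {g : M → Q} {q : Q → B}
    (hq : IsLeafQuotient Ψ g q) {k : ℕ} (hB : CovDimLE B k) {D C : ℝ}
    (hD : ∀ x x' y, dist (Ψ (x, y)) (Ψ (x', y)) ≤ D) (hC : D < C) :
    H53.UrysohnWidthLE Q k C := by
  classical
  obtain ⟨hs, ho, hl, hqq, hleaf⟩ := hq
  set ε := (C - D) / 2 with hε
  have hε0 : 0 < ε := by rw [hε]; linarith
  set U : F → Set F := fun y => {y' | ∀ x : N, dist (Ψ (x, y)) (Ψ (x, y')) < ε} with hU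
  have hUo : ∀ y, IsOpen (U y) := by
    intro y
    rw [isOpen_iff_mem_nhds]
    intro y' hy'
    have h1 : ∀ᶠ z in 𝓝 y', ∀ x ∈ (univ : Set N), dist (Ψ (x, y)) (Ψ (x, z)) < ε := by
      refine isCompact_univ.eventually_forall_of_forall_eventually fun x _ => ?_
      have h2 : Continuous fun z : F × N => dist (Ψ (z.2, y)) (Ψ (z.2, z.1)) := by
        have h3 : Continuous fun z : F × N => Ψ (z.2, y) :=
          Ψ.continuous.comp (continuous_snd.prodMk continuous_const)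
        have h4 : Continuous fun z : F × N => Ψ (z.2, z.1) :=
          Ψ.continuous.comp (continuous_snd.prodMk continuous_fst)
        exact h3.dist h4
      exact h2.continuousAt.eventually_lt_const (hy' x)
    filter_upwards [h1] with z hz x using hz x (mem_univ x)
  -- the images of the slices over `U y`
  set T : F → Set Q := fun y => g '' (Ψ '' (univ ×ˢ U y)) with hT
  have hTo : ∀ y, IsOpen (T y) := fun y =>
    ho _ (Ψ.isOpenMap _ (isOpen_univ.prod (hUo y)))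
  have hTm : ∀ y z, z ∈ T y → ∃ x, ∃ y' ∈ U y, g (Ψ (x, y')) = z := by
    rintro y z ⟨_, ⟨⟨x, y'⟩, ⟨_, hy'⟩, rfl⟩, rfl⟩
    exact ⟨x, y', hy', rfl⟩
  set W : F → Set B := fun y => q '' T y with hW
  have hWT : ∀ y, q ⁻¹' (W y) = T y := by
    intro y
    refine Subset.antisymm ?_ (subset_preimage_image q (T y))
    rintro z ⟨z', hz', hzz⟩
    obtain ⟨x, y', hy', rfl⟩ := hTm y z' hz'
    obtain ⟨b, hb⟩ := hleaf y'
    have h1 : g (Ψ (x, y')) ∈ q ⁻¹' {b} := by rw [← hb]; exact ⟨x, rfl⟩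
    have h2 : z ∈ q ⁻¹' {b} := by
      have h3 : q (g (Ψ (x, y'))) = b := h1
      change q z = b
      rw [← hzz, h3]
    rw [← hb] at h2
    obtain ⟨x', rfl⟩ := h2
    exact ⟨_, ⟨(x', y'), ⟨mem_univ _, hy'⟩, rfl⟩, rfl⟩
  have hWo : ∀ y, IsOpen (W y) := by
    intro y
    rw [← hqq.isOpen_preimage, hWT]
    exact hTo y
  have hWc : (⋃ y, W y) = univ := by
    refine eq_univ_of_forall fun b => ?_
    obtain ⟨z, rfl⟩ := hqq.surjective b
    obtain ⟨a, rfl⟩ := hs z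
    obtain ⟨⟨x, y⟩, rfl⟩ := Ψ.surjective a
    refine mem_iUnion.2 ⟨y, _, ⟨_, ⟨(x, y), ⟨mem_univ _, fun x' => ?_⟩, rfl⟩, rfl⟩, rfl⟩
    rw [dist_self]
    exact hε0
  obtain ⟨W', hW', hW'c, hord⟩ := hB F W hWo hWc
  obtain ⟨lam, hlam, hsup⟩ := H664.bary_of_cover (fun a => (hW' a).1) hW'c hord
  refine H912.urysohn_of_bary ⟨F, fun v z => lam v (q z),
    ⟨fun v => (hlam.cont v).comp hqq.continuous, fun v z => hlam.nonneg v _,
      hlam.fin.preimage_continuous hqq.continuous, fun z => hlam.sum _, fun z => hlam.card _⟩,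
    fun z z' hzz => ?_⟩
  obtain ⟨v, hv⟩ : ∃ v, lam v (q z) ≠ 0 := by
    by_contra hcon
    push Not at hcon
    have h1 := hlam.sum (q z)
    rw [finsum_eq_zero_of_forall_eq_zero hcon] at h1
    exact zero_ne_one h1
  have hv' : lam v (q z') ≠ 0 := fun h0 => hv ((hzz v).trans h0)
  have key : ∀ z, lam v (q z) ≠ 0 → ∃ x, ∃ y' ∈ U v, g (Ψ (x, y')) = z := by
    intro z hz
    refine hTm v z ?_
    rw [← hWT]
    exact (hW' v).2 (hsup v hz)
  obtain ⟨x, y, hy, rfl⟩ := key z hv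
  obtain ⟨x', y', hy', rfl⟩ := key z' hv'
  have h1 := hl (Ψ (x, y)) (Ψ (x', y'))
  have h2 : dist (Ψ (x, v)) (Ψ (x, y)) < ε := hy x
  have h3 : dist (Ψ (x', v)) (Ψ (x', y')) < ε := hy' x'
  have h4 := hD x x' v
  have h5 := dist_triangle (Ψ (x, y)) (Ψ (x, v)) (Ψ (x', y'))
  have h6 := dist_triangle (Ψ (x, v)) (Ψ (x', v)) (Ψ (x', y'))
  have h7 := dist_comm (Ψ (x, y)) (Ψ (x, v))
  linarith

/-- the theorem on twisted products over surfaces, with their quotients -/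
theorem surface_base3 {θ : ℝ} (hθ : 0 ≤ θ) (hθ1 : θ < 1) {k : ℕ} (hk : 1 ≤ k) {C : ℝ}
    (hC : 2 * Real.pi * √((k + 1) / ((k + 2) * (1 - θ))) < C) :
    Stmt.ForT fun E _ _ _ V _ _ _ N _ _ _ _ _ _ F _ _ _ M _ _ _ _ _ _ w Φ =>
    (∀ x, w x = 1) → Module.finrank ℝ E = 2 → Module.finrank ℝ V = k → CompleteSpace M →
    ScalGE (E × V) M 1 →
    (k ≤ 1 ∨ ∃ (r : ℕ) (p : Fin r → ℝ) (Y : Fin r → Set F), (∀ j, 0 ≤ p j) ∧ ∑ j, p j = 1 ∧
      (∀ j, PropD Φ (Y j)) ∧ ∀ x : N, ∃ (y : Fin r → F) (s : Fin r → ℝ), (∀ j, y j ∈ Y j ∧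
        ScalLEAt (fibreMetric Φ x (chartAt V (y j))) (chartAt V (y j) (y j)) (s j)) ∧
        ∑ j, p j * s j ≤ θ) →
    H53.UrysohnWidthLE M k C ∧
      ∀ (Q : Type) [MetricSpace Q] (B : Type) [TopologicalSpace B] [T2Space B]
        [ParacompactSpace B] (g : M → Q) (q : Q → B), IsLeafQuotient Φ.symm g q → CovDimLE B k →
        H53.UrysohnWidthLE Q k C := by
  classical
  intro E _ _ _ V _ _ _ N _ _ _ _ _ _ F _ _ _ M _ _ _ _ _ _ w Φ hw hw0 hΦ hw1 hdE hdV hcM hScal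
    hfib
  refine ⟨surface_base2 hθ hθ1 hk hC E V N F M w Φ hw hw0 hΦ hw1 hdE hdV hcM hScal hfib, ?_⟩
  intro Q _ B _ _ _ g q hq hB
  subst hdV
  rcases isEmpty_or_nonempty M with hM | hM
  · have : IsEmpty Q := ⟨fun z => hM.elim (hq.1 z).choose⟩
    exact H912.urysohn_of_isEmpty _ _
  obtain ⟨p₀⟩ := hM
  have : Nonempty F := ⟨(Φ p₀).2⟩
  have : Nonempty N := ⟨(Φ p₀).1⟩
  have hsq : ∀ x, w x ≤ 1 ^ 2 := fun x => by rw [hw1]; norm_num
  obtain ⟨hsl1, hsl2⟩ := H265.slice E V N F M w Φ hw hw0 hΦ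
  have : CompleteSpace N := hsl2 1 zero_le_one hsq hcM inferInstance
  have : ConnectedSpace N := by
    have : PathConnectedSpace N :=
      ⟨⟨(Φ p₀).1⟩, fun x y => H973.pathConnected_of_riemannian (E := E) x y⟩
    infer_instance
  have : ProperSpace N := properSpace_riemannian E N
  obtain ⟨φ, hφ, hSc⟩ : ∃ φ : N → ℝ, ContMDiff 𝓘(ℝ, E) 𝓘(ℝ, ℝ) ∞ φ ∧
      ScalGEf E N (fun p => (1 - θ) + 2 * Lap E φ p +
        (1 + (Module.finrank ℝ V : ℝ)⁻¹) * Gam E φ φ p) := by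
    rcases hfib with h | ⟨r, p, Y, hp, hp1, hY, hs⟩
    · exact twist_s hθ E V N F M w Φ hw hw0 hΦ hw1 hScal (Φ p₀).2 (Or.inl h)
    · exact twist_avg E V N F M w Φ hw hw0 hΦ hw1 hScal r p Y hp hp1 hY hs inferInstance
  have hsmall := surf_diam hθ1 hk hdE hφ hSc
  have : CompactSpace N := by
    refine ⟨?_⟩
    have h2 : (univ : Set N) = closedBall (Φ p₀).1 (2 * Real.pi *
        √(((Module.finrank ℝ V : ℝ) + 1) / (((Module.finrank ℝ V : ℝ) + 2) * (1 - θ)))) :=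
      (eq_univ_of_forall fun x => hsmall x _).symm
    rw [h2]
    exact isCompact_closedBall _ _
  refine width_quot Φ.symm.toHomeomorph hq hB (fun x x' y => ?_) hC
  have h5 := hsl1 1 zero_le_one hsq x x' y
  rw [one_mul] at h5
  exact h5.trans (hsmall x x')

end Vale.Agent.P210.R2.H465
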