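import Vale.Agent.P210.R2.H465.SfY

/-!
# Twisted products over surfaces, third form
-/

open scoped Manifold ContDiff Topology Bundle ENNReal NNReal
open Set Metric Filter Bundle IsManifold MeasureTheory Manifold Asymptotics

set_option maxSynthPendingDepth 3

noncomputable section

namespace Vale.Agent.P210.R2.H465

open Vale.Agent.P210.R2.H53

theorem exists_theta {θ : ℝ} (hθ1 : θ < 1) (k : ℕ) {C : ℝ}
    (hC : 2 * Real.pi * √((k + 1) / ((k + 2) * (1 - θ))) < C) :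
    ∃ ε > 0, θ + ε < 1 ∧ 2 * Real.pi * √((k + 1) / ((k + 2) * (1 - (θ + ε)))) < C := by
  have hk : (0 : ℝ) < (k : ℝ) + 2 := by positivity
  have h0 : ((k : ℝ) + 2) * (1 - (θ + 0)) ≠ 0 := by
    have : 0 < 1 - (θ + 0) := by linarith
    positivity
  have h1 : ContinuousAt (fun ε : ℝ => 2 * Real.pi * √(((k : ℝ) + 1) /
      (((k : ℝ) + 2) * (1 - (θ + ε))))) 0 := by
    refine continuousAt_const.mul (Real.continuous_sqrt.continuousAt.comp
      (f := fun ε : ℝ => ((k : ℝ) + 1) / (((k : ℝ) + 2) * (1 - (θ + ε)))) ?_)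
    exact continuousAt_const.div (by fun_prop) h0
  have h2 : ∀ᶠ ε in 𝓝 (0 : ℝ), 2 * Real.pi * √(((k : ℝ) + 1) /
      (((k : ℝ) + 2) * (1 - (θ + ε)))) < C :=
    h1.eventually_lt_const (by simpa using hC)
  have h3 : ∀ᶠ ε in 𝓝 (0 : ℝ), θ + ε < 1 := by
    have h4 : ContinuousAt (fun ε : ℝ => θ + ε) 0 := by fun_prop
    exact h4.eventually_lt_const (by simpa using hθ1)
  have h5 : ∀ᶠ ε in 𝓝[>] (0 : ℝ), 0 < ε := eventually_mem_nhdsWithin
  obtain ⟨ε, ⟨h6, h7⟩, h8⟩ := (((h2.and h3).filter_mono nhdsWithin_le_nhds).and h5).exists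
  exact ⟨ε, h8, h7, h6⟩

/-- the theorem on twisted products over surfaces, with their quotients; the condition on the
fibres only on compact sets -/
theorem surface_base4 {θ : ℝ} (hθ : 0 ≤ θ) (hθ1 : θ < 1) {k : ℕ} (hk : 1 ≤ k) {C : ℝ}
    (hC : 2 * Real.pi * √((k + 1) / ((k + 2) * (1 - θ))) < C) :
    Stmt.ForT fun E _ _ _ V _ _ _ N _ _ _ _ _ _ F _ _ _ M _ _ _ _ _ _ w Φ =>
    (∀ x, w x = 1) → Module.finrank ℝ E = 2 → Module.finrank ℝ V = k → CompleteSpace M →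
    ScalGE (E × V) M 1 →
    (k ≤ 1 ∨ ∀ K : Set N, IsCompact K → ∀ ε > 0, ∃ (r : ℕ) (p : Fin r → ℝ) (Y : Fin r → Set F),
      (∀ j, 0 ≤ p j) ∧ ∑ j, p j = 1 ∧
      (∀ j, PropD Φ (Y j)) ∧ ∀ x ∈ K, ∃ (y : Fin r → F) (s : Fin r → ℝ), (∀ j, y j ∈ Y j ∧
        ScalLEAt (fibreMetric Φ x (chartAt V (y j))) (chartAt V (y j) (y j)) (s j)) ∧
        ∑ j, p j * s j ≤ θ + ε) →
    H53.UrysohnWidthLE M k C ∧
      ∀ (Q : Type) [MetricSpace Q] (B : Type) [TopologicalSpace B] [T2Space B]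
        [ParacompactSpace B] (g : M → Q) (q : Q → B), IsLeafQuotient Φ.symm g q → CovDimLE B k →
        H53.UrysohnWidthLE Q k C := by
  classical
  intro E _ _ _ V _ _ _ N _ _ _ _ _ _ F _ _ _ M _ _ _ _ _ _ w Φ hw hw0 hΦ hw1 hdE hdV hcM hScal
    hfib
  subst hdV
  rcases isEmpty_or_nonempty M with hM | hM
  · refine ⟨H912.urysohn_of_isEmpty _ _, ?_⟩
    intro Q _ B _ _ _ g q hq hB
    have : IsEmpty Q := ⟨fun z => hM.elim (hq.1 z).choose⟩
    exact H912.urysohn_of_isEmpty _ _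
  obtain ⟨p₀⟩ := hM
  have : Nonempty F := ⟨(Φ p₀).2⟩
  have : Nonempty N := ⟨(Φ p₀).1⟩
  have hsq : ∀ x, w x ≤ 1 ^ 2 := fun x => by rw [hw1]; norm_num
  obtain ⟨hsl1, hsl2⟩ := H265.slice E V N F M w Φ hw hw0 hΦ
  have : CompleteSpace N := hsl2 1 zero_le_one hsq hcM inferInstance
  have : ConnectedSpace N := by
    have : PathConnectedSpace N :=
      ⟨⟨(Φ p₀).1⟩, fun x y => H973.pathConnected_of_riemannian (E := E) x y⟩
    infer_instance
  have : ProperSpace N := properSpace_riemannian E N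
  have : ProperSpace M := properSpace_riemannian (E × V) M
  obtain ⟨D, hDC, hsmall⟩ : ∃ D : ℝ, D < C ∧ ∀ x x' : N, dist x x' ≤ D := by
    rcases hfib with h | hfib
    · obtain ⟨φ, hφ, hSc⟩ := twist_s hθ E V N F M w Φ hw hw0 hΦ hw1 hScal (Φ p₀).2 (Or.inl h)
      exact ⟨_, hC, surf_diam hθ1 hk hdE hφ hSc⟩
    · obtain ⟨ε, hε, hε1, hεC⟩ := exists_theta hθ1 _ hC
      refine ⟨_, hεC, fun x x' => ?_⟩
      obtain ⟨r, p, Y, hp, hp1, hY, hs⟩ := hfib (closedBall x (dist x x'))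
        (isCompact_closedBall _ _) ε hε
      obtain ⟨φ, hφ, hSc⟩ := twist_avgK E V N F M w Φ hw hw0 hΦ hw1 hScal r p Y hp hp1 hY
        (closedBall x (dist x x')) hs x (mem_closedBall_self dist_nonneg)
      exact surf_diam' hε1 hk hdE hφ x x' fun e he z hz hzK =>
        hSc e he z hz (ball_subset_closedBall hzK)
  have : CompactSpace N := by
    refine ⟨?_⟩
    have h2 : (univ : Set N) = closedBall (Φ p₀).1 D :=
      (eq_univ_of_forall fun x => hsmall x _).symm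
    rw [h2]
    exact isCompact_closedBall _ _
  refine ⟨?_, ?_⟩
  · obtain ⟨mu, hmu, hmu'⟩ := exists_bary_prod (V := V) Φ.toHomeomorph (ε := (C - D) / 2)
      (by linarith)
    refine H912.urysohn_of_bary ⟨_, mu, hmu, fun p q hpq => ?_⟩
    obtain ⟨v, h3, h4⟩ := hmu' p q hpq
    have h5 := hsl1 1 zero_le_one hsq (Φ p).1 (Φ q).1 v
    have h6 := hsmall (Φ p).1 (Φ q).1
    have h7 : dist p (Φ.symm ((Φ p).1, v)) < (C - D) / 2 := h3
    have h8 : dist q (Φ.symm ((Φ q).1, v)) < (C - D) / 2 := h4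
    have h9 := dist_triangle p (Φ.symm ((Φ p).1, v)) q
    have h10 := dist_triangle (Φ.symm ((Φ p).1, v)) (Φ.symm ((Φ q).1, v)) q
    rw [dist_comm q] at h8
    linarith
  · intro Q _ B _ _ _ g q hq hB
    refine width_quot Φ.symm.toHomeomorph hq hB (fun x x' y => ?_) hDC
    have h5 := hsl1 1 zero_le_one hsq x x' y
    rw [one_mul] at h5
    exact h5.trans (hsmall x x')

end Vale.Agent.P210.R2.H465
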